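import Vale.Agent.P064.BD.Rooted

/-!
# P064: a connected edge set inside a forest has more vertices than edges
-/

namespace Vale.Agent.P064.BD

open Finset Vale.Agent.P064

variable {n : ℕ}

theorem built_acyclic {F : Finset (Sym2 (Fin n))}
    (hF : (SimpleGraph.fromEdgeSet (F : Set (Sym2 (Fin n)))).IsAcyclic) (hFE : F ⊆ allEdges n)
    {u : Fin n} {K₁ : Finset (Sym2 (Fin n))} (hB : Built u K₁) (hKF : K₁ ⊆ F) :
    (∀ x ∈ insert u (verts K₁),
      (SimpleGraph.fromEdgeSet (K₁ : Set (Sym2 (Fin n)))).Reachable u x) ∧
      K₁.card + 1 ≤ (insert u (verts K₁)).card := by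
  induction hB with
  | nil =>
    constructor
    · intro x hx
      have : x = u := by simpa [verts] using hx
      rw [this]
    · simp [verts]
  | @step K₁ a b hB ha ih =>
    obtain ⟨ih1, ih2⟩ := ih ((Finset.subset_insert _ _).trans hKF)
    by_cases hmem : s(a, b) ∈ K₁
    · rw [Finset.insert_eq_of_mem hmem]
      exact ⟨ih1, ih2⟩
    have habF : s(a, b) ∈ F := hKF (Finset.mem_insert_self _ _)
    have hab : a ≠ b := by
      have := hFE habF
      simpa [allEdges] using this
    set W₁ := insert u (verts K₁) with hW₁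
    have hW₂ : insert u (verts (insert s(a, b) K₁)) = insert b W₁ := by
      rw [verts_insert]
      ext x
      simp only [hW₁, Finset.mem_insert] at ha ⊢
      constructor
      · rintro (h | h | h | h)
        · exact Or.inr (Or.inl h)
        · rcases ha with ha | ha
          · exact Or.inr (Or.inl (h.trans ha))
          · exact Or.inr (Or.inr (h ▸ ha))
        · exact Or.inl h
        · exact Or.inr (Or.inr h)
      · rintro (h | h | h)
        · exact Or.inr (Or.inr (Or.inl h))
        · exact Or.inl h
        · exact Or.inr (Or.inr (Or.inr h))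
    have hb : b ∉ W₁ := by
      intro hb
      have hr : (SimpleGraph.fromEdgeSet (K₁ : Set (Sym2 (Fin n)))).Reachable a b :=
        (ih1 a ha).symm.trans (ih1 b hb)
      have hadj : (SimpleGraph.fromEdgeSet (F : Set (Sym2 (Fin n)))).Adj a b := by
        rw [SimpleGraph.fromEdgeSet_adj]
        exact ⟨by exact_mod_cast habF, hab⟩
      have hbr := SimpleGraph.isAcyclic_iff_forall_adj_isBridge.1 hF hadj
      rw [SimpleGraph.isBridge_iff] at hbr
      apply hbr
      refine hr.mono ?_
      intro x y hxy
      rw [SimpleGraph.fromEdgeSet_adj] at hxy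
      rw [SimpleGraph.deleteEdges_adj, SimpleGraph.fromEdgeSet_adj]
      have hxyK : s(x, y) ∈ K₁ := by exact_mod_cast hxy.1
      refine ⟨⟨by exact_mod_cast hKF (Finset.mem_insert_of_mem hxyK), hxy.2⟩, ?_⟩
      intro h
      rw [Set.mem_singleton_iff] at h
      exact hmem (h ▸ hxyK)
    rw [hW₂]
    constructor
    · have hmono : SimpleGraph.fromEdgeSet (K₁ : Set (Sym2 (Fin n)))
          ≤ SimpleGraph.fromEdgeSet ((insert s(a, b) K₁ : Finset (Sym2 (Fin n))) :
            Set (Sym2 (Fin n))) := by
        apply SimpleGraph.fromEdgeSet_mono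
        intro e he
        have he' : e ∈ K₁ := by exact_mod_cast he
        exact_mod_cast Finset.mem_insert_of_mem he'
      intro x hx
      rcases Finset.mem_insert.1 hx with rfl | hx
      · refine ((ih1 a ha).mono hmono).trans (SimpleGraph.Adj.reachable ?_)
        rw [SimpleGraph.fromEdgeSet_adj]
        exact ⟨by exact_mod_cast Finset.mem_insert_self _ _, hab⟩
      · exact (ih1 x hx).mono hmono
    · rw [Finset.card_insert_of_notMem hb, Finset.card_insert_of_notMem hmem]
      omega

theorem card_add_one_le_of_acyclic {F K : Finset (Sym2 (Fin n))}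
    (hF : (SimpleGraph.fromEdgeSet (F : Set (Sym2 (Fin n)))).IsAcyclic) (hFE : F ⊆ allEdges n)
    (hKF : K ⊆ F) (hK : Conn K) : K.card + 1 ≤ (verts K).card := by
  obtain ⟨e, he⟩ := hK.1
  induction e using Sym2.ind with
  | _ a b =>
    have hu : a ∈ verts K := mem_verts.2 ⟨_, he, Sym2.mem_mk_left _ _⟩
    have := (built_acyclic hF hFE (built_of_conn hK hu) hKF).2
    rwa [Finset.insert_eq_of_mem hu] at this

end Vale.Agent.P064.BD
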