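import Vale.Agent.P064.BD.Main2

/-!
# P064: the first moment hypothesis bounds common neighbourhoods
-/

namespace Vale.Agent.P064.BD

open Finset Vale.Agent.P064

variable {n : ℕ}

/-- common neighbourhood of the vertex set `J` in `H` -/
def cnbr (H : Finset (Sym2 (Fin n))) (J : Finset (Fin n)) : Finset (Fin n) :=
  univ.filter (fun z => ∀ u ∈ J, s(u, z) ∈ H)

/-- the complete bipartite edge set between `J` and `S` -/
def biEdges (J S : Finset (Fin n)) : Finset (Sym2 (Fin n)) :=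
  (J ×ˢ S).image (fun x => s(x.1, x.2))

theorem mem_cnbr {H : Finset (Sym2 (Fin n))} {J : Finset (Fin n)} {z : Fin n} :
    z ∈ cnbr H J ↔ ∀ u ∈ J, s(u, z) ∈ H := by
  simp [cnbr]

theorem relabel_biEdges (σ : Equiv.Perm (Fin n)) (J S : Finset (Fin n)) :
    relabel σ (biEdges J S) = biEdges (J.image σ) (S.image σ) := by
  ext e
  simp only [relabel, biEdges, Finset.mem_image, Finset.mem_product, Prod.exists]
  constructor
  · rintro ⟨_, ⟨a, b, ⟨ha, hb⟩, rfl⟩, rfl⟩
    exact ⟨σ a, σ b, ⟨⟨a, ha, rfl⟩, ⟨b, hb, rfl⟩⟩, by simp⟩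
  · rintro ⟨_, _, ⟨⟨a, ha, rfl⟩, ⟨b, hb, rfl⟩⟩, rfl⟩
    exact ⟨s(a, b), ⟨a, b, ⟨ha, hb⟩, rfl⟩, by simp⟩

theorem card_biEdges {J S : Finset (Fin n)} (h : Disjoint J S) :
    (biEdges J S).card = J.card * S.card := by
  unfold biEdges
  rw [Finset.card_image_of_injOn, Finset.card_product]
  rintro ⟨a, b⟩ hab ⟨c, d⟩ hcd heq
  simp only [Finset.coe_product, Set.mem_prod, Finset.mem_coe] at hab hcd
  simp only [Sym2.eq_iff] at heq
  rcases heq with ⟨rfl, rfl⟩ | ⟨rfl, rfl⟩
  · rfl
  · exact absurd hcd.2 (Finset.disjoint_left.1 h hab.1)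

theorem count_biEdges_le (J S : Finset (Fin n)) :
    count (allEdges n) (biEdges J S) ≤ n.choose J.card * n.choose S.card := by
  classical
  have hsub : copies (allEdges n) (biEdges J S) ⊆
      ((powersetCard J.card (univ : Finset (Fin n))) ×ˢ
        (powersetCard S.card (univ : Finset (Fin n)))).image (fun x => biEdges x.1 x.2) := by
    intro F' hF'
    obtain ⟨_, σ, rfl⟩ := mem_copies.1 hF'
    rw [relabel_biEdges]
    refine Finset.mem_image.2 ⟨(J.image σ, S.image σ), ?_, rfl⟩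
    rw [Finset.mem_product, Finset.mem_powersetCard, Finset.mem_powersetCard]
    exact ⟨⟨Finset.subset_univ _, Finset.card_image_of_injective _ σ.injective⟩,
      ⟨Finset.subset_univ _, Finset.card_image_of_injective _ σ.injective⟩⟩
  calc count (allEdges n) (biEdges J S) ≤ _ := Finset.card_le_card hsub
    _ ≤ _ := Finset.card_image_le
    _ = n.choose J.card * n.choose S.card := by
        rw [Finset.card_product, Finset.card_powersetCard, Finset.card_powersetCard]
        simp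

theorem card_cnbr_le {H : Finset (Sym2 (Fin n))} {q : ℝ} (hH : H ⊆ allEdges n) (hq : 0 ≤ q)
    (hyp : ∀ F' ⊆ H, 1 ≤ expCount n q F') (l : ℕ) (hl : n ≤ 2 ^ l) (J : Finset (Fin n))
    (_hJ : J.Nonempty) :
    ((cnbr H J).card : ℝ) ≤ max ((J.card : ℝ) * l) (6 * n * q ^ J.card) := by
  classical
  set S := cnbr H J with hS
  set j := J.card with hj
  set t := S.card with ht
  by_cases hlt : t ≤ j * l
  · exact le_max_of_le_left (by exact_mod_cast hlt)
  refine le_max_of_le_right ?_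
  have hlt' : j * l < t := not_le.1 hlt
  have ht1 : 1 ≤ t := by omega
  have hdisj : Disjoint J S := by
    rw [Finset.disjoint_left]
    intro z hzJ hzS
    have h1 := hH (mem_cnbr.1 hzS z hzJ)
    simp [allEdges] at h1
  have hsub : biEdges J S ⊆ H := by
    intro e he
    obtain ⟨⟨a, b⟩, hab, rfl⟩ := Finset.mem_image.1 he
    rw [Finset.mem_product] at hab
    exact mem_cnbr.1 hab.2 a hab.1
  have h1 := hyp _ hsub
  rw [expCount_eq, card_biEdges hdisj] at h1
  have h2 : (count (allEdges n) (biEdges J S) : ℝ) ≤ (n : ℝ) ^ j * (3 * (n : ℝ) / t) ^ t := by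
    calc (count (allEdges n) (biEdges J S) : ℝ) ≤ (n.choose j : ℝ) * (n.choose t : ℝ) := by
          exact_mod_cast count_biEdges_le J S
      _ ≤ (n : ℝ) ^ j * (3 * (n : ℝ) / t) ^ t := by
          refine mul_le_mul ?_ (choose_le_three n t ht1) (by positivity) (by positivity)
          exact_mod_cast Nat.choose_le_pow n j
  have h3 : (n : ℝ) ^ j ≤ 2 ^ t := by
    have : n ^ j ≤ 2 ^ t := by
      calc n ^ j ≤ (2 ^ l) ^ j := Nat.pow_le_pow_left hl j
        _ = 2 ^ (j * l) := by rw [← pow_mul, mul_comm]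
        _ ≤ 2 ^ t := Nat.pow_le_pow_right (by norm_num) hlt'.le
    exact_mod_cast this
  have ht0 : (0 : ℝ) < (t : ℝ) := by exact_mod_cast ht1
  have h5 : (1 : ℝ) ≤ (6 * n * q ^ j / t) ^ t := by
    calc (1 : ℝ) ≤ (count (allEdges n) (biEdges J S) : ℝ) * q ^ (j * t) := h1
      _ ≤ ((n : ℝ) ^ j * (3 * (n : ℝ) / t) ^ t) * q ^ (j * t) :=
          mul_le_mul_of_nonneg_right h2 (by positivity)
      _ ≤ (2 ^ t * (3 * (n : ℝ) / t) ^ t) * q ^ (j * t) :=
          mul_le_mul_of_nonneg_right (mul_le_mul_of_nonneg_right h3 (by positivity))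
            (by positivity)
      _ = (6 * n * q ^ j / t) ^ t := by
          rw [pow_mul, ← mul_pow, ← mul_pow]; congr 1; ring
  have h6 : (1 : ℝ) ≤ 6 * n * q ^ j / t := by
    by_contra hcon
    have hlt1 : 6 * (n : ℝ) * q ^ j / t < 1 := not_le.1 hcon
    have h7 : (6 * (n : ℝ) * q ^ j / t) ^ t < 1 :=
      pow_lt_one₀ (by positivity) hlt1 (by omega)
    linarith
  rwa [le_div_iff₀ ht0, one_mul] at h6

end Vale.Agent.P064.BD
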