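import Vale.Agent.P064.BD.Defs

/-!
# P064, bounded degree hosts: rooted embeddings of a connected edge set
-/

namespace Vale.Agent.P064.BD

open Finset Vale.Agent.P064

variable {n : ℕ}

/-- edge sets that can be built from the root `u` by adding edges touching what is there -/
inductive Built (u : Fin n) : Finset (Sym2 (Fin n)) → Prop
  | nil : Built u ∅
  | step {K₁ : Finset (Sym2 (Fin n))} {a b : Fin n} :
      Built u K₁ → a ∈ insert u (verts K₁) → Built u (insert s(a, b) K₁)

/-- rooted homomorphisms, the identity off the vertex set -/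
def homs (H K₁ : Finset (Sym2 (Fin n))) (u y : Fin n) : Finset (Fin n → Fin n) :=
  univ.filter (fun g => (∀ x, x ∉ insert u (verts K₁) → g x = x) ∧ g u = y ∧
    ∀ a b, s(a, b) ∈ K₁ → s(g a, g b) ∈ H)

theorem mem_homs {H K₁ : Finset (Sym2 (Fin n))} {u y : Fin n} {g : Fin n → Fin n} :
    g ∈ homs H K₁ u y ↔ (∀ x, x ∉ insert u (verts K₁) → g x = x) ∧ g u = y ∧
      ∀ a b, s(a, b) ∈ K₁ → s(g a, g b) ∈ H := by
  simp [homs]

theorem verts_insert (a b : Fin n) (K₁ : Finset (Sym2 (Fin n))) :
    verts (insert s(a, b) K₁) = insert a (insert b (verts K₁)) := by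
  ext v
  simp only [mem_verts, Finset.mem_insert]
  constructor
  · rintro ⟨e, rfl | he, hv⟩
    · rcases Sym2.mem_iff.1 hv with rfl | rfl
      · exact Or.inl rfl
      · exact Or.inr (Or.inl rfl)
    · exact Or.inr (Or.inr ⟨e, he, hv⟩)
  · rintro (rfl | rfl | ⟨e, he, hv⟩)
    · exact ⟨_, Or.inl rfl, Sym2.mem_mk_left _ _⟩
    · exact ⟨_, Or.inl rfl, Sym2.mem_mk_right _ _⟩
    · exact ⟨e, Or.inr he, hv⟩

theorem built_bound {H : Finset (Sym2 (Fin n))} {D : ℕ} (hdeg : ∀ v, deg H v ≤ D) (u y : Fin n)
    {K₁ : Finset (Sym2 (Fin n))} (hB : Built u K₁) :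
    (homs H K₁ u y).card ≤ D ^ ((insert u (verts K₁)).card - 1) ∧
      (insert u (verts K₁)).card ≤ K₁.card + 1 := by
  induction hB with
  | nil =>
    constructor
    · have h0 : (insert u (verts (∅ : Finset (Sym2 (Fin n))))).card = 1 := by simp [verts]
      rw [h0]
      simp only [Nat.sub_self, pow_zero]
      rw [Finset.card_le_one]
      intro g hg g' hg'
      rw [mem_homs] at hg hg'
      funext x
      by_cases hx : x = u
      · rw [hx, hg.2.1, hg'.2.1]
      · have hx' : x ∉ insert u (verts (∅ : Finset (Sym2 (Fin n)))) := by simp [verts, hx]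
        rw [hg.1 x hx', hg'.1 x hx']
    · simp [verts]
  | @step K₁ a b hB ha ih =>
    obtain ⟨ih1, ih2⟩ := ih
    set W₁ := insert u (verts K₁) with hW₁
    have hW₂ : insert u (verts (insert s(a, b) K₁)) = insert b W₁ := by
      rw [verts_insert]
      ext x
      simp only [hW₁, Finset.mem_insert] at ha ⊢
      constructor
      · rintro (h | h | h | h)
        · exact Or.inr (Or.inl h)
        · rcases ha with ha | ha
          · exact Or.inr (Or.inl (h.trans ha))
          · exact Or.inr (Or.inr (h ▸ ha))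
        · exact Or.inl h
        · exact Or.inr (Or.inr h)
      · rintro (h | h | h)
        · exact Or.inr (Or.inr (Or.inl h))
        · exact Or.inl h
        · exact Or.inr (Or.inr (Or.inr h))
    rw [hW₂]
    have huW : u ∈ W₁ := Finset.mem_insert_self _ _
    have hvW : verts K₁ ⊆ W₁ := Finset.subset_insert _ _
    by_cases hb : b ∈ W₁
    · rw [Finset.insert_eq_of_mem hb]
      constructor
      · refine le_trans (Finset.card_le_card ?_) ih1
        intro g hg
        rw [mem_homs] at hg ⊢
        rw [hW₂, Finset.insert_eq_of_mem hb] at hg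
        exact ⟨hg.1, hg.2.1, fun c d hcd => hg.2.2 c d (Finset.mem_insert_of_mem hcd)⟩
      · exact ih2.trans (Nat.succ_le_succ (Finset.card_le_card (Finset.subset_insert _ _)))
    · have hnot : s(a, b) ∉ K₁ := fun h =>
        hb (hvW (mem_verts.2 ⟨_, h, Sym2.mem_mk_right _ _⟩))
      rw [Finset.card_insert_of_notMem hb, Finset.card_insert_of_notMem hnot]
      constructor
      · have hpos : 1 ≤ W₁.card := Finset.card_pos.2 ⟨u, huW⟩
        have e1 : W₁.card + 1 - 1 = (W₁.card - 1) + 1 := by omega
        rw [e1, pow_succ]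
        have hcard : ((homs H K₁ u y).sigma (fun g₁ => nbr H (g₁ a))).card
            ≤ (homs H K₁ u y).card * D := by
          rw [Finset.card_sigma]
          calc ∑ g₁ ∈ homs H K₁ u y, (nbr H (g₁ a)).card ≤ ∑ _g₁ ∈ homs H K₁ u y, D :=
                Finset.sum_le_sum fun g₁ _ => hdeg _
            _ = (homs H K₁ u y).card * D := by simp
        refine le_trans ?_ (hcard.trans (Nat.mul_le_mul_right D ih1))
        refine Finset.card_le_card_of_injOn
          (fun g => (⟨restr W₁ g, g b⟩ : (_ : Fin n → Fin n) × Fin n)) ?_ ?_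
        · intro g hg
          have hg' := mem_homs.1 (Finset.mem_coe.1 hg)
          rw [hW₂] at hg'
          simp only [Finset.coe_sigma, Set.mem_sigma_iff, Finset.mem_coe]
          constructor
          · rw [mem_homs]
            refine ⟨fun x hx => restr_apply_of_not_mem hx, ?_, ?_⟩
            · rw [restr_apply_of_mem huW]; exact hg'.2.1
            · intro c d hcd
              have hc : c ∈ W₁ := hvW (mem_verts.2 ⟨_, hcd, Sym2.mem_mk_left _ _⟩)
              have hd : d ∈ W₁ := hvW (mem_verts.2 ⟨_, hcd, Sym2.mem_mk_right _ _⟩)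
              rw [restr_apply_of_mem hc, restr_apply_of_mem hd]
              exact hg'.2.2 c d (Finset.mem_insert_of_mem hcd)
          · rw [mem_nbr, restr_apply_of_mem ha]
            exact hg'.2.2 a b (Finset.mem_insert_self _ _)
        · intro g hg g' hg' heq
          have hg1 := mem_homs.1 (Finset.mem_coe.1 hg)
          have hg2 := mem_homs.1 (Finset.mem_coe.1 hg')
          rw [hW₂] at hg1 hg2
          simp only [Sigma.mk.injEq, heq_eq_eq] at heq
          funext x
          by_cases hx : x ∈ W₁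
          · have := congrFun heq.1 x
            rwa [restr_apply_of_mem hx, restr_apply_of_mem hx] at this
          · by_cases hxb : x = b
            · rw [hxb]; exact heq.2
            · have hx' : x ∉ insert b W₁ := by simp [hxb, hx]
              rw [hg1.1 x hx', hg2.1 x hx']
      · omega

theorem built_of_conn {K : Finset (Sym2 (Fin n))} (hK : Conn K) {u : Fin n} (hu : u ∈ verts K) :
    Built u K := by
  classical
  obtain ⟨K₁, hK₁, hmax⟩ := Finset.exists_max_image (K.powerset.filter (fun K₁ => Built u K₁))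
    Finset.card ⟨∅, by simp [Built.nil]⟩
  rw [Finset.mem_filter, Finset.mem_powerset] at hK₁
  by_contra hcon
  have hne : K₁ ≠ K := fun h => hcon (h ▸ hK₁.2)
  have key : ∃ e ∈ K \ K₁, ∃ v ∈ e, v ∈ insert u (verts K₁) := by
    rcases K₁.eq_empty_or_nonempty with h0 | h0
    · obtain ⟨e, he, hue⟩ := mem_verts.1 hu
      exact ⟨e, by simp [h0, he], u, hue, Finset.mem_insert_self _ _⟩
    · obtain ⟨e, he, v, hv, hv'⟩ := hK.2 K₁ hK₁.1 h0 hne
      exact ⟨e, he, v, hv, Finset.mem_insert_of_mem hv'⟩
  obtain ⟨e, he, v, hv, hv'⟩ := key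
  obtain ⟨b, rfl⟩ := hv
  rw [Finset.mem_sdiff] at he
  have h1 : Built u (insert s(v, b) K₁) := Built.step hK₁.2 hv'
  have h2 : insert s(v, b) K₁ ∈ K.powerset.filter (fun K₁ => Built u K₁) := by
    rw [Finset.mem_filter, Finset.mem_powerset]
    exact ⟨Finset.insert_subset he.1 hK₁.1, h1⟩
  have h3 := hmax _ h2
  rw [Finset.card_insert_of_notMem he.2] at h3
  omega

theorem rooted_card_le {H K : Finset (Sym2 (Fin n))} {D : ℕ} (hdeg : ∀ v, deg H v ≤ D)
    (hK : Conn K) {u : Fin n} (hu : u ∈ verts K) (y : Fin n) :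
    ((rembs H K).filter (fun g => g u = y)).card ≤ D ^ ((verts K).card - 1) := by
  have h1 := (built_bound hdeg u y (built_of_conn hK hu)).1
  rw [Finset.insert_eq_of_mem hu] at h1
  refine le_trans (Finset.card_le_card ?_) h1
  intro g hg
  rw [Finset.mem_filter] at hg
  obtain ⟨σ, hσ, rfl⟩ := mem_rembs.1 hg.1
  rw [mem_homs, Finset.insert_eq_of_mem hu]
  refine ⟨fun x hx => restr_apply_of_not_mem hx, hg.2, ?_⟩
  intro a b hab
  have ha : a ∈ verts K := mem_verts.2 ⟨_, hab, Sym2.mem_mk_left _ _⟩
  have hb : b ∈ verts K := mem_verts.2 ⟨_, hab, Sym2.mem_mk_right _ _⟩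
  rw [restr_apply_of_mem ha, restr_apply_of_mem hb]
  apply hσ
  rw [relabel, Finset.mem_image]
  exact ⟨s(a, b), hab, rfl⟩

theorem conn_card_verts_le {K : Finset (Sym2 (Fin n))} (hK : Conn K) :
    (verts K).card ≤ K.card + 1 := by
  obtain ⟨e, he⟩ := hK.1
  induction e using Sym2.ind with
  | _ a b =>
    have hu : a ∈ verts K := mem_verts.2 ⟨_, he, Sym2.mem_mk_left _ _⟩
    have h1 := (built_bound (H := (∅ : Finset (Sym2 (Fin n)))) (D := 0)
      (fun v => by simp [deg, nbr]) a a (built_of_conn hK hu)).2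
    rwa [Finset.insert_eq_of_mem hu] at h1

end Vale.Agent.P064.BD
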