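import Vale.Agent.P064.BD.Pack
import Vale.Agent.P064.BD.Rooted

/-! P064, bounded degree hosts, PART D: the number of restricted embeddings of a connected graph. -/

namespace Vale.Agent.P064.BD

open Finset Vale.Agent.P064

variable {n : ℕ}

theorem verts_nonempty {K : Finset (Sym2 (Fin n))} (hK : K.Nonempty) : (verts K).Nonempty := by
  obtain ⟨e, he⟩ := hK
  induction e with
  | _ a b => exact ⟨a, mem_verts.mpr ⟨s(a, b), he, by simp⟩⟩

theorem exists_max_packing (H : Finset (Sym2 (Fin n))) {K : Finset (Sym2 (Fin n))}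
    (hK : K.Nonempty) :
    ∃ P ⊆ copies H K, (∀ A ∈ P, ∀ B ∈ P, A ≠ B → Disjoint (verts A) (verts B)) ∧
      ∀ A ∈ copies H K, ∃ B ∈ P, ¬ Disjoint (verts A) (verts B) := by
  classical
  let C : Finset (Finset (Finset (Sym2 (Fin n)))) :=
    (copies H K).powerset.filter
      (fun P => ∀ A ∈ P, ∀ B ∈ P, A ≠ B → Disjoint (verts A) (verts B))
  have h0 : (∅ : Finset (Finset (Sym2 (Fin n)))) ∈ C := by
    simp [C]
  obtain ⟨P, hPC, hmax⟩ := Finset.exists_max_image C Finset.card ⟨∅, h0⟩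
  simp only [C, mem_filter, mem_powerset] at hPC
  obtain ⟨hPsub, hPdisj⟩ := hPC
  refine ⟨P, hPsub, hPdisj, ?_⟩
  intro A hA
  by_contra hcon
  push Not at hcon
  have hAne : (verts A).Nonempty := by
    obtain ⟨-, σ, rfl⟩ := mem_copies.mp hA
    have h1 := card_verts_relabel σ K
    have h2 := (verts_nonempty hK).card_pos
    rw [← Finset.card_pos]
    omega
  have hAP : A ∉ P := by
    intro h
    have := hcon A h
    rw [disjoint_self] at this
    exact hAne.ne_empty this
  have hins : insert A P ∈ C := by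
    simp only [C, mem_filter, mem_powerset]
    refine ⟨Finset.insert_subset hA hPsub, ?_⟩
    intro X hX Z hZ hXZ
    rw [mem_insert] at hX hZ
    rcases hX with rfl | hX <;> rcases hZ with rfl | hZ
    · exact absurd rfl hXZ
    · exact hcon Z hZ
    · exact (hcon X hX).symm
    · exact hPdisj X hX Z hZ hXZ
  have := hmax _ hins
  rw [Finset.card_insert_of_notMem hAP] at this
  omega

theorem conn_bound {H K : Finset (Sym2 (Fin n))} {D : ℕ} {q : ℝ} (hq : 0 ≤ q)
    (hdeg : ∀ v, deg H v ≤ D) (hyp : ∀ F' ⊆ H, 1 ≤ expCount n q F') (hK : Conn K) :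
    ((rembs H K).card : ℝ) ≤ 3 * ((verts K).card : ℝ) ^ 2 * (D : ℝ) ^ ((verts K).card - 1)
      * (n : ℝ) ^ (verts K).card * q ^ K.card := by
  classical
  obtain ⟨P, hPsub, hPdisj, hPmax⟩ := exists_max_packing H hK.1
  set k := (verts K).card with hk
  let Y : Finset (Fin n) := P.biUnion verts
  have hY : Y.card ≤ P.card * k := by
    apply Finset.card_biUnion_le_card_mul
    intro B hB
    obtain ⟨-, σ, rfl⟩ := mem_copies.mp (hPsub hB)
    rw [card_verts_relabel]
  have hsub : rembs H K ⊆ (verts K).biUnion (fun u => Y.biUnion (fun y =>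
      (rembs H K).filter (fun g => g u = y))) := by
    intro g hg
    obtain ⟨σ, hσ, hgσ⟩ := mem_rembs.mp hg
    have hA : relabel σ K ∈ copies H K := mem_copies.mpr ⟨hσ, σ, rfl⟩
    obtain ⟨B, hB, hnd⟩ := hPmax _ hA
    rw [Finset.not_disjoint_iff] at hnd
    obtain ⟨v, hvA, hvB⟩ := hnd
    rw [verts_relabel, Finset.mem_image] at hvA
    obtain ⟨u, hu, rfl⟩ := hvA
    simp only [mem_biUnion, mem_filter]
    refine ⟨u, hu, σ u, Finset.mem_biUnion.mpr ⟨B, hB, hvB⟩, hg, ?_⟩
    rw [← hgσ, restr_apply_of_mem hu]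
  have hcard : (rembs H K).card ≤ k * (Y.card * D ^ (k - 1)) := by
    calc (rembs H K).card
        ≤ ((verts K).biUnion (fun u => Y.biUnion (fun y =>
            (rembs H K).filter (fun g => g u = y)))).card := Finset.card_le_card hsub
      _ ≤ (verts K).card * (Y.card * D ^ (k - 1)) := by
          apply Finset.card_biUnion_le_card_mul
          intro u hu
          apply Finset.card_biUnion_le_card_mul
          intro y _
          exact rooted_card_le hdeg hK hu y
      _ = k * (Y.card * D ^ (k - 1)) := by rw [hk]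
  have hP := packing_bound hq hK.1 hyp P hPsub hPdisj
  have h1 : ((rembs H K).card : ℝ) ≤ (k : ℝ) * (((P.card : ℝ) * k) * (D : ℝ) ^ (k - 1)) := by
    have h2 : (rembs H K).card ≤ k * ((P.card * k) * D ^ (k - 1)) :=
      hcard.trans (Nat.mul_le_mul_left _ (Nat.mul_le_mul_right _ hY))
    exact_mod_cast h2
  calc ((rembs H K).card : ℝ) ≤ (k : ℝ) * (((P.card : ℝ) * k) * (D : ℝ) ^ (k - 1)) := h1
    _ = ((k : ℝ) ^ 2 * (D : ℝ) ^ (k - 1)) * (P.card : ℝ) := by ring
    _ ≤ ((k : ℝ) ^ 2 * (D : ℝ) ^ (k - 1)) * (3 * (n : ℝ) ^ k * q ^ K.card) := by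
        apply mul_le_mul_of_nonneg_left hP
        positivity
    _ = 3 * (k : ℝ) ^ 2 * (D : ℝ) ^ (k - 1) * (n : ℝ) ^ k * q ^ K.card := by ring

end Vale.Agent.P064.BD
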