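import Vale.Agent.P064.BD.Defs

/-! P064, bounded degree hosts, PART E: splitting off a connected component. -/

namespace Vale.Agent.P064.BD

open Finset Vale.Agent.P064

variable {n : ℕ}

theorem exists_component {F : Finset (Sym2 (Fin n))} (hF : F.Nonempty) :
    ∃ K ⊆ F, Conn K ∧ Disjoint (verts K) (verts (F \ K)) := by
  classical
  let C : Finset (Finset (Sym2 (Fin n))) :=
    F.powerset.filter (fun K => K.Nonempty ∧ ∀ e ∈ F \ K, ∀ v ∈ e, v ∉ verts K)
  have hFC : F ∈ C := by
    simp only [C, mem_filter, mem_powerset, subset_refl, true_and]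
    refine ⟨hF, ?_⟩
    intro e he
    simp at he
  obtain ⟨K, hKC, hmin⟩ := Finset.exists_min_image C Finset.card ⟨F, hFC⟩
  simp only [C, mem_filter, mem_powerset] at hKC
  obtain ⟨hKF, hKne, hcl⟩ := hKC
  refine ⟨K, hKF, ⟨hKne, ?_⟩, ?_⟩
  · intro K₁ hK₁ hne hneq
    have hlt : K₁.card < K.card :=
      Finset.card_lt_card (Finset.ssubset_iff_subset_ne.mpr ⟨hK₁, hneq⟩)
    have hnot : K₁ ∉ C := by
      intro h
      have := hmin K₁ h
      omega
    simp only [C, mem_filter, mem_powerset, not_and] at hnot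
    have h2 := hnot (hK₁.trans hKF) hne
    push Not at h2
    obtain ⟨e, he, v, hv, hvK⟩ := h2
    rw [mem_sdiff] at he
    refine ⟨e, ?_, v, hv, hvK⟩
    rw [mem_sdiff]
    refine ⟨?_, he.2⟩
    by_contra heK
    exact hcl e (mem_sdiff.mpr ⟨he.1, heK⟩) v hv (verts_mono hK₁ hvK)
  · rw [Finset.disjoint_left]
    intro v hvK hv
    obtain ⟨e, he, hve⟩ := mem_verts.mp hv
    exact hcl e he v hve hvK

theorem card_rembs_union_le (H K F₀ : Finset (Sym2 (Fin n))) :
    (rembs H (K ∪ F₀)).card ≤ (rembs H K).card * (rembs H F₀).card := by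
  classical
  rw [← Finset.card_product]
  apply Finset.card_le_card_of_injOn
    (fun g => (restr (verts K) g, restr (verts F₀) g))
  · intro g hg
    have hg' := mem_rembs.mp (Finset.mem_coe.mp hg)
    obtain ⟨σ, hσ, rfl⟩ := hg'
    simp only [Finset.coe_product, Set.mem_prod, Finset.mem_coe]
    constructor
    · refine mem_rembs.mpr ⟨σ, (relabel_mono σ Finset.subset_union_left).trans hσ, ?_⟩
      funext x
      by_cases hx : x ∈ verts K
      · have hx' : x ∈ verts (K ∪ F₀) := verts_mono Finset.subset_union_left hx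
        rw [restr_apply_of_mem hx, restr_apply_of_mem hx, restr_apply_of_mem hx']
      · rw [restr_apply_of_not_mem hx, restr_apply_of_not_mem hx]
    · refine mem_rembs.mpr ⟨σ, (relabel_mono σ Finset.subset_union_right).trans hσ, ?_⟩
      funext x
      by_cases hx : x ∈ verts F₀
      · have hx' : x ∈ verts (K ∪ F₀) := verts_mono Finset.subset_union_right hx
        rw [restr_apply_of_mem hx, restr_apply_of_mem hx, restr_apply_of_mem hx']
      · rw [restr_apply_of_not_mem hx, restr_apply_of_not_mem hx]
  · intro g hg g' hg' heq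
    obtain ⟨σ, -, rfl⟩ := mem_rembs.mp (Finset.mem_coe.mp hg)
    obtain ⟨τ, -, rfl⟩ := mem_rembs.mp (Finset.mem_coe.mp hg')
    simp only [Prod.mk.injEq] at heq
    obtain ⟨h1, h2⟩ := heq
    funext x
    by_cases hxK : x ∈ verts K
    · have := congrFun h1 x
      rwa [restr_apply_of_mem hxK, restr_apply_of_mem hxK] at this
    · by_cases hxF : x ∈ verts F₀
      · have := congrFun h2 x
        rwa [restr_apply_of_mem hxF, restr_apply_of_mem hxF] at this
      · have hx : x ∉ verts (K ∪ F₀) := by
          rw [verts_union, Finset.mem_union]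
          tauto
        rw [restr_apply_of_not_mem hx, restr_apply_of_not_mem hx]

end Vale.Agent.P064.BD
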