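import Vale.Agent.P064.Analytic

/-!
# P064, bounded degree hosts: definitions

Edge sets on `Fin n`; `verts F` the touched vertices; `embs G F` the permutations carrying `F`
into `G`; `rembs G F` their restrictions to `verts F` (identity outside); `Conn K` connectedness
of an edge set (no proper nonempty part is closed under touching edges).
-/

namespace Vale.Agent.P064.BD

open Finset Vale.Agent.P064

variable {n : ℕ}

/-- the vertices touched by an edge set -/
def verts (F : Finset (Sym2 (Fin n))) : Finset (Fin n) := F.biUnion Sym2.toFinset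

/-- restriction of a map to `W`, the identity outside `W` -/
def restr (W : Finset (Fin n)) (g : Fin n → Fin n) : Fin n → Fin n :=
  fun x => if x ∈ W then g x else x

/-- the permutations that carry `F` into `G` -/
def embs (G F : Finset (Sym2 (Fin n))) : Finset (Equiv.Perm (Fin n)) :=
  univ.filter (fun σ => relabel σ F ⊆ G)

/-- their restrictions to the vertex set of `F` -/
def rembs (G F : Finset (Sym2 (Fin n))) : Finset (Fin n → Fin n) :=
  (embs G F).image (fun σ : Equiv.Perm (Fin n) => restr (verts F) (σ : Fin n → Fin n))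

/-- connected edge set -/
def Conn (K : Finset (Sym2 (Fin n))) : Prop :=
  K.Nonempty ∧ ∀ K₁ ⊆ K, K₁.Nonempty → K₁ ≠ K → ∃ e ∈ K \ K₁, ∃ v ∈ e, v ∈ verts K₁

theorem mem_verts {F : Finset (Sym2 (Fin n))} {v : Fin n} : v ∈ verts F ↔ ∃ e ∈ F, v ∈ e := by
  simp [verts]

theorem mem_embs {G F : Finset (Sym2 (Fin n))} {σ : Equiv.Perm (Fin n)} :
    σ ∈ embs G F ↔ relabel σ F ⊆ G := by
  simp [embs]

theorem mem_rembs {G F : Finset (Sym2 (Fin n))} {g : Fin n → Fin n} :
    g ∈ rembs G F ↔ ∃ σ : Equiv.Perm (Fin n), relabel σ F ⊆ G ∧ restr (verts F) σ = g := by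
  simp [rembs, mem_embs]

theorem verts_mono {F F' : Finset (Sym2 (Fin n))} (h : F ⊆ F') : verts F ⊆ verts F' :=
  Finset.biUnion_subset_biUnion_of_subset_left _ h

theorem verts_union (F F' : Finset (Sym2 (Fin n))) : verts (F ∪ F') = verts F ∪ verts F' := by
  ext v
  simp only [mem_verts, Finset.mem_union]
  constructor
  · rintro ⟨e, he | he, hv⟩
    · exact Or.inl ⟨e, he, hv⟩
    · exact Or.inr ⟨e, he, hv⟩
  · rintro (⟨e, he, hv⟩ | ⟨e, he, hv⟩)
    · exact ⟨e, Or.inl he, hv⟩
    · exact ⟨e, Or.inr he, hv⟩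

theorem verts_relabel (σ : Equiv.Perm (Fin n)) (F : Finset (Sym2 (Fin n))) :
    verts (relabel σ F) = (verts F).image σ := by
  ext v
  simp only [mem_verts, relabel, Finset.mem_image]
  constructor
  · rintro ⟨e, ⟨e', he', rfl⟩, hv⟩
    obtain ⟨w, hw, rfl⟩ := Sym2.mem_map.1 hv
    exact ⟨w, ⟨e', he', hw⟩, rfl⟩
  · rintro ⟨w, ⟨e', he', hw⟩, rfl⟩
    exact ⟨Sym2.map σ e', ⟨e', he', rfl⟩, Sym2.mem_map.2 ⟨w, hw, rfl⟩⟩

theorem card_verts_relabel (σ : Equiv.Perm (Fin n)) (F : Finset (Sym2 (Fin n))) :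
    (verts (relabel σ F)).card = (verts F).card := by
  rw [verts_relabel, Finset.card_image_of_injective _ σ.injective]

theorem relabel_mono (σ : Equiv.Perm (Fin n)) {F F' : Finset (Sym2 (Fin n))} (h : F ⊆ F') :
    relabel σ F ⊆ relabel σ F' := Finset.image_subset_image h

theorem restr_apply_of_mem {W : Finset (Fin n)} {g : Fin n → Fin n} {x : Fin n} (h : x ∈ W) :
    restr W g x = g x := by simp [restr, h]

theorem restr_apply_of_not_mem {W : Finset (Fin n)} {g : Fin n → Fin n} {x : Fin n} (h : x ∉ W) :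
    restr W g x = x := by simp [restr, h]

end Vale.Agent.P064.BD
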