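import Vale.Agent.P064.BD.Codeg

/-! P064, PART K: counting restricted embeddings of a degenerate graph. -/

namespace Vale.Agent.P064.BD

open Finset Vale.Agent.P064

variable {n : ℕ}

/-- restrictions to `W` of the permutations carrying `F` into `H` -/
def rembsOn (H F : Finset (Sym2 (Fin n))) (W : Finset (Fin n)) : Finset (Fin n → Fin n) :=
  (embs H F).image (fun σ : Equiv.Perm (Fin n) => restr W (σ : Fin n → Fin n))

theorem mem_rembsOn {H F : Finset (Sym2 (Fin n))} {W : Finset (Fin n)} {g : Fin n → Fin n} :
    g ∈ rembsOn H F W ↔ ∃ σ : Equiv.Perm (Fin n), relabel σ F ⊆ H ∧ restr W σ = g := by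
  simp [rembsOn, mem_embs]

theorem card_edges_at (F : Finset (Sym2 (Fin n))) (w : Fin n) :
    (F.filter (fun e => w ∈ e)).card = (nbr F w).card := by
  have h : F.filter (fun e => w ∈ e) = (nbr F w).image (fun u => s(w, u)) := by
    ext e
    simp only [mem_filter, mem_image, mem_nbr]
    constructor
    · rintro ⟨he, hw⟩
      obtain ⟨u, rfl⟩ := Sym2.mem_iff_exists.mp hw
      exact ⟨u, he, rfl⟩
    · rintro ⟨u, hu, rfl⟩
      exact ⟨hu, Sym2.mem_mk_left _ _⟩
  rw [h, Finset.card_image_of_injective]
  intro a b hab
  exact Sym2.congr_right.mp hab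

theorem card_rembsOn_le {H : Finset (Sym2 (Fin n))} {c : ℝ} (hc : 0 ≤ c) (d : ℕ)
    (hM : ∀ J : Finset (Fin n), J.Nonempty → J.card ≤ d →
      ((cnbr H J).card : ℝ) ≤ (n : ℝ) * c ^ J.card)
    (π : Fin n → ℕ) (hπ : Function.Injective π) :
    ∀ (W : Finset (Fin n)) (F : Finset (Sym2 (Fin n))), F ⊆ allEdges n → verts F ⊆ W →
      (∀ w ∈ W, ((nbr F w).filter (fun u => π u < π w)).card ≤ d) →
      ((rembsOn H F W).card : ℝ) ≤ (n : ℝ) ^ W.card * c ^ F.card := by
  have key : ∀ (k : ℕ) (W : Finset (Fin n)), W.card = k →
      ∀ (F : Finset (Sym2 (Fin n))), F ⊆ allEdges n → verts F ⊆ W →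
      (∀ w ∈ W, ((nbr F w).filter (fun u => π u < π w)).card ≤ d) →
      ((rembsOn H F W).card : ℝ) ≤ (n : ℝ) ^ W.card * c ^ F.card := by
    intro k
    induction k with
    | zero =>
      intro W hW F hF hv _
      have hW0 : W = ∅ := Finset.card_eq_zero.mp hW
      subst hW0
      have hF0 : F = ∅ := by
        rw [Finset.eq_empty_iff_forall_notMem]
        intro e he
        induction e using Sym2.ind with
        | _ a b =>
          have : a ∈ verts F := mem_verts.mpr ⟨s(a, b), he, Sym2.mem_mk_left _ _⟩
          exact absurd (hv this) (Finset.notMem_empty _)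
      subst hF0
      have h1 : (rembsOn H (∅ : Finset (Sym2 (Fin n))) ∅).card ≤ 1 := by
        rw [Finset.card_le_one]
        intro a ha b hb
        obtain ⟨σ, -, rfl⟩ := mem_rembsOn.mp ha
        obtain ⟨τ, -, rfl⟩ := mem_rembsOn.mp hb
        funext x
        simp [restr]
      simp only [Finset.card_empty, pow_zero, mul_one]
      exact_mod_cast h1
    | succ k ih =>
      intro W hW F hF hv hback
      have hne : W.Nonempty := by
        rw [← Finset.card_pos, hW]; exact Nat.succ_pos k
      obtain ⟨w, hwW, hmax⟩ := Finset.exists_max_image W π hne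
      set F1 := F.filter (fun e => w ∉ e) with hF1
      set W1 := W.erase w with hW1
      have hW1c : W1.card = k := by
        rw [hW1, Finset.card_erase_of_mem hwW, hW]; rfl
      have hnb : ∀ u ∈ nbr F w, u ∈ W1 := by
        intro u hu
        have hu' : s(w, u) ∈ F := mem_nbr.mp hu
        have huW : u ∈ W := hv (mem_verts.mpr ⟨s(w, u), hu', Sym2.mem_mk_right _ _⟩)
        have hne' : u ≠ w := by
          rintro rfl
          have := hF hu'
          simp [allEdges] at this
        exact Finset.mem_erase.mpr ⟨hne', huW⟩
      have hlt : ∀ u ∈ nbr F w, π u < π w := by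
        intro u hu
        have h1 := Finset.mem_erase.mp (hnb u hu)
        exact lt_of_le_of_ne (hmax u h1.2) (fun h => h1.1 (hπ h))
      have ht : (nbr F w).card ≤ d := by
        have := hback w hwW
        rwa [Finset.filter_true_of_mem hlt] at this
      have hcard : F.card = F1.card + (nbr F w).card := by
        rw [← card_edges_at F w, hF1, add_comm]
        exact (Finset.card_filter_add_card_filter_not (s := F) (fun e => w ∈ e)).symm
      have hF1sub : F1 ⊆ F := Finset.filter_subset _ _
      have hv1 : verts F1 ⊆ W1 := by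
        intro v hvv
        obtain ⟨e, he, hve⟩ := mem_verts.mp hvv
        have he' := Finset.mem_filter.mp he
        refine Finset.mem_erase.mpr ⟨?_, hv (mem_verts.mpr ⟨e, he'.1, hve⟩)⟩
        rintro rfl
        exact he'.2 hve
      have hback1 : ∀ x ∈ W1, ((nbr F1 x).filter (fun u => π u < π x)).card ≤ d := by
        intro x hx
        refine le_trans (Finset.card_le_card ?_) (hback x (Finset.mem_of_mem_erase hx))
        intro u hu
        rw [Finset.mem_filter] at hu ⊢
        exact ⟨mem_nbr.mpr (hF1sub (mem_nbr.mp hu.1)), hu.2⟩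
      have hih := ih W1 hW1c F1 (hF1sub.trans hF) hv1 hback1
      -- the covering
      have hsub : rembsOn H F W ⊆ (rembsOn H F1 W1).biUnion (fun g1 =>
          (cnbr H ((nbr F w).image g1)).image (fun y => Function.update g1 w y)) := by
        intro g hg
        obtain ⟨σ, hσ, rfl⟩ := mem_rembsOn.mp hg
        rw [Finset.mem_biUnion]
        refine ⟨restr W1 σ, mem_rembsOn.mpr ⟨σ, (relabel_mono σ hF1sub).trans hσ, rfl⟩, ?_⟩
        rw [Finset.mem_image]
        refine ⟨σ w, ?_, ?_⟩
        · unfold cnbr
          rw [Finset.mem_filter]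
          refine ⟨Finset.mem_univ _, ?_⟩
          intro u' hu'
          obtain ⟨u, hu, rfl⟩ := Finset.mem_image.mp hu'
          rw [restr_apply_of_mem (hnb u hu), Sym2.eq_swap]
          apply hσ
          unfold relabel
          exact Finset.mem_image.mpr ⟨s(w, u), mem_nbr.mp hu, by simp⟩
        · funext x
          by_cases hx : x = w
          · subst hx
            rw [Function.update_self, restr_apply_of_mem hwW]
          · rw [Function.update_of_ne hx]
            by_cases hxW : x ∈ W
            · rw [restr_apply_of_mem hxW, restr_apply_of_mem (Finset.mem_erase.mpr ⟨hx, hxW⟩)]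
            · rw [restr_apply_of_not_mem hxW,
                restr_apply_of_not_mem (fun h => hxW (Finset.mem_of_mem_erase h))]
      have hC : ∀ g1 ∈ rembsOn H F1 W1,
          (((cnbr H ((nbr F w).image g1)).image (fun y => Function.update g1 w y)).card : ℝ)
            ≤ (n : ℝ) * c ^ (nbr F w).card := by
        intro g1 hg1
        obtain ⟨σ, -, rfl⟩ := mem_rembsOn.mp hg1
        have hJc : ((nbr F w).image (restr W1 σ)).card = (nbr F w).card := by
          apply Finset.card_image_of_injOn
          intro a ha b hb hab
          have ha' := hnb a (Finset.mem_coe.mp ha)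
          have hb' := hnb b (Finset.mem_coe.mp hb)
          rw [restr_apply_of_mem ha', restr_apply_of_mem hb'] at hab
          exact σ.injective hab
        have h1 : (((cnbr H ((nbr F w).image (restr W1 σ))).image
            (fun y => Function.update (restr W1 σ) w y)).card : ℝ)
            ≤ ((cnbr H ((nbr F w).image (restr W1 σ))).card : ℝ) := by
          exact_mod_cast Finset.card_image_le
        refine le_trans h1 ?_
        by_cases hemp : (nbr F w).Nonempty
        · have := hM ((nbr F w).image (restr W1 σ)) (hemp.image _) (by rw [hJc]; exact ht)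
          rwa [hJc] at this
        · rw [Finset.not_nonempty_iff_eq_empty] at hemp
          rw [hemp]
          simp only [Finset.image_empty, Finset.card_empty, pow_zero, mul_one]
          have : (cnbr H (∅ : Finset (Fin n))).card ≤ n := by
            calc (cnbr H (∅ : Finset (Fin n))).card ≤ (univ : Finset (Fin n)).card :=
                  Finset.card_le_card (Finset.subset_univ _)
              _ = n := by simp
          exact_mod_cast this
      have h2 : ((rembsOn H F W).card : ℝ) ≤ ∑ g1 ∈ rembsOn H F1 W1,
          (((cnbr H ((nbr F w).image g1)).image (fun y => Function.update g1 w y)).card : ℝ) := by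
        have := le_trans (Finset.card_le_card hsub) Finset.card_biUnion_le
        exact_mod_cast this
      have h3 : ∑ g1 ∈ rembsOn H F1 W1,
          (((cnbr H ((nbr F w).image g1)).image (fun y => Function.update g1 w y)).card : ℝ)
          ≤ ((rembsOn H F1 W1).card : ℝ) * ((n : ℝ) * c ^ (nbr F w).card) := by
        rw [← nsmul_eq_mul]
        exact Finset.sum_le_card_nsmul _ _ _ hC
      have hnn : (0 : ℝ) ≤ (n : ℝ) * c ^ (nbr F w).card := by positivity
      have h4 := mul_le_mul_of_nonneg_right hih hnn
      rw [hW, hcard, hW1c] at *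
      calc ((rembsOn H F W).card : ℝ) ≤ _ := h2
        _ ≤ _ := h3
        _ ≤ _ := h4
        _ = (n : ℝ) ^ (k + 1) * c ^ (F1.card + (nbr F w).card) := by
          rw [pow_succ, pow_add]; ring
  intro W F
  exact key W.card W rfl F

end Vale.Agent.P064.BD
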