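import Vale.Agent.P064.BD.Defs

/-!
# P064, bounded degree hosts: the number of permutations with a given restriction
-/

namespace Vale.Agent.P064.BD

open Finset Vale.Agent.P064

variable {n : ℕ}

theorem card_fix_le (W : Finset (Fin n)) :
    (univ.filter (fun σ : Equiv.Perm (Fin n) => ∀ x ∈ W, σ x = x)).card
      = (n - W.card).factorial := by
  classical
  have e := Equiv.Perm.subtypeEquivSubtypePerm (fun a : Fin n => a ∉ W)
  have h1 : Fintype.card (Equiv.Perm {a : Fin n // a ∉ W}) = (n - W.card).factorial := by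
    rw [Fintype.card_perm]
    congr 1
    rw [Fintype.card_subtype_compl (fun a : Fin n => a ∈ W)]
    simp
  rw [← h1, Fintype.card_congr e, Fintype.card_subtype]
  congr 1
  ext σ
  simp

theorem card_agree_le (W : Finset (Fin n)) (g : Fin n → Fin n) :
    (univ.filter (fun σ : Equiv.Perm (Fin n) => ∀ x ∈ W, σ x = g x)).card
      ≤ (n - W.card).factorial := by
  classical
  rcases (univ.filter (fun σ : Equiv.Perm (Fin n) => ∀ x ∈ W, σ x = g x)).eq_empty_or_nonempty
    with h | ⟨σ₀, h₀⟩
  · rw [h]; simp
  rw [← card_fix_le W]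
  have h₀' : ∀ x ∈ W, σ₀ x = g x := by simpa using h₀
  refine Finset.card_le_card_of_injOn (fun σ => σ₀⁻¹ * σ) ?_ ?_
  · intro σ hσ
    have hσ' : ∀ x ∈ W, σ x = g x := by simpa using hσ
    simp only [Finset.coe_filter, Finset.mem_univ, true_and, Set.mem_ofPred_eq]
    intro x hx
    rw [Equiv.Perm.mul_apply, hσ' x hx, ← h₀' x hx]
    simp
  · intro σ _ τ _ h
    exact mul_left_cancel h

theorem card_embs_le (H F : Finset (Sym2 (Fin n))) :
    (embs H F).card ≤ (n - (verts F).card).factorial * (rembs H F).card := by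
  classical
  unfold rembs
  refine Finset.card_le_mul_card_image _ _ ?_
  intro g _
  refine le_trans (Finset.card_le_card ?_) (card_agree_le (verts F) g)
  intro σ hσ
  rw [Finset.mem_filter] at hσ
  simp only [Finset.mem_filter, Finset.mem_univ, true_and]
  intro x hx
  rw [← hσ.2, restr_apply_of_mem hx]

end Vale.Agent.P064.BD
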