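import Vale.Agent.P064.BD.Orbit
import Vale.Agent.P064.BD.Fibre
import Vale.Agent.P064.BD.ConnBound
import Vale.Agent.P064.BD.Decomp

/-!
# P064, bounded degree hosts: the main theorem

If `H` has maximum degree at most `D` and every subgraph of `H` has expected count at least `1`
at density `q`, then `N(H,F) ≤ E N(G(n, min {1, 108 D q}), F)` for every subgraph `F` of `H`.
-/

namespace Vale.Agent.P064.BD

open Finset Vale.Agent.P064

variable {n : ℕ}


theorem three_sq_le (k : ℕ) (hk : 2 ≤ k) : 3 * k ^ 2 ≤ 12 ^ (k - 1) := by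
  induction k, hk using Nat.le_induction with
  | base => norm_num
  | succ k hk ih =>
    have e : k + 1 - 1 = (k - 1) + 1 := by omega
    rw [e, pow_succ]
    have h1 : 3 * (k + 1) ^ 2 ≤ 3 * k ^ 2 * 12 := by nlinarith
    exact h1.trans (Nat.mul_le_mul_right 12 ih)

theorem two_le_card_verts {K : Finset (Sym2 (Fin n))} (hK : K.Nonempty) (hKE : K ⊆ allEdges n) :
    2 ≤ (verts K).card := by
  obtain ⟨e, he⟩ := hK
  have hd : ¬ e.IsDiag := by
    have := hKE he
    simpa [allEdges] using this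
  induction e using Sym2.ind with
  | _ a b =>
    have hab : a ≠ b := by simpa using hd
    have h1 : ({a, b} : Finset (Fin n)) ⊆ verts K := by
      intro x hx
      rw [mem_verts]
      refine ⟨s(a, b), he, ?_⟩
      simp only [Finset.mem_insert, Finset.mem_singleton] at hx
      rcases hx with rfl | rfl <;> simp
    calc 2 = ({a, b} : Finset (Fin n)).card := (Finset.card_pair hab).symm
      _ ≤ _ := Finset.card_le_card h1

theorem card_verts_le_two_mul (F : Finset (Sym2 (Fin n))) : (verts F).card ≤ 2 * F.card := by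
  unfold verts
  calc (F.biUnion Sym2.toFinset).card ≤ ∑ e ∈ F, (Sym2.toFinset e).card := Finset.card_biUnion_le
    _ ≤ ∑ _e ∈ F, 2 := by
        refine Finset.sum_le_sum fun e _ => ?_
        induction e using Sym2.ind with
        | _ a b =>
          have : Sym2.toFinset s(a, b) ⊆ {a, b} := by
            intro x hx
            simpa using hx
          exact (Finset.card_le_card this).trans Finset.card_le_two
    _ = 2 * F.card := by simp [mul_comm]

theorem comp_bound {H K : Finset (Sym2 (Fin n))} {D : ℕ} {q : ℝ} (hH : H ⊆ allEdges n)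
    (hq : 0 ≤ q) (hD : 1 ≤ D) (hdeg : ∀ v, deg H v ≤ D)
    (hyp : ∀ F' ⊆ H, 1 ≤ expCount n q F') (hK : Conn K) (hKH : K ⊆ H) :
    ((rembs H K).card : ℝ) ≤ (n : ℝ) ^ (verts K).card * (12 * D * q) ^ K.card := by
  have h1 := conn_bound hq hdeg hyp hK
  set k := (verts K).card with hk
  have hk2 : 2 ≤ k := two_le_card_verts hK.1 (hKH.trans hH)
  have hke : k - 1 ≤ K.card := by
    have := conn_card_verts_le hK
    omega
  have h2 : (3 * (k : ℝ) ^ 2) ≤ 12 ^ K.card := by
    have h3 : 3 * k ^ 2 ≤ 12 ^ K.card :=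
      (three_sq_le k hk2).trans (Nat.pow_le_pow_right (by norm_num) hke)
    exact_mod_cast h3
  have h4 : (D : ℝ) ^ (k - 1) ≤ (D : ℝ) ^ K.card :=
    pow_le_pow_right₀ (by exact_mod_cast hD) hke
  have hD0 : (0 : ℝ) ≤ (D : ℝ) := by positivity
  have hn0 : (0 : ℝ) ≤ (n : ℝ) ^ k := by positivity
  have hq0 : (0 : ℝ) ≤ q ^ K.card := by positivity
  calc ((rembs H K).card : ℝ)
      ≤ 3 * (k : ℝ) ^ 2 * (D : ℝ) ^ (k - 1) * (n : ℝ) ^ k * q ^ K.card := h1
    _ ≤ 12 ^ K.card * (D : ℝ) ^ K.card * (n : ℝ) ^ k * q ^ K.card := by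
        have h5 : 3 * (k : ℝ) ^ 2 * (D : ℝ) ^ (k - 1) ≤ 12 ^ K.card * (D : ℝ) ^ K.card :=
          mul_le_mul h2 h4 (by positivity) (by positivity)
        exact mul_le_mul_of_nonneg_right (mul_le_mul_of_nonneg_right h5 hn0) hq0
    _ = (n : ℝ) ^ k * (12 * D * q) ^ K.card := by
        rw [mul_pow, mul_pow]; ring

theorem rembs_empty (H : Finset (Sym2 (Fin n))) : (rembs H ∅).card ≤ 1 := by
  rw [Finset.card_le_one]
  intro a ha b hb
  obtain ⟨σ, _, rfl⟩ := mem_rembs.1 ha
  obtain ⟨τ, _, rfl⟩ := mem_rembs.1 hb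
  funext x
  simp [restr, verts]

theorem all_bound {H : Finset (Sym2 (Fin n))} {D : ℕ} {q : ℝ} (hH : H ⊆ allEdges n) (hq : 0 ≤ q)
    (hD : 1 ≤ D) (hdeg : ∀ v, deg H v ≤ D) (hyp : ∀ F' ⊆ H, 1 ≤ expCount n q F') :
    ∀ F ⊆ H, ((rembs H F).card : ℝ) ≤ (n : ℝ) ^ (verts F).card * (12 * D * q) ^ F.card := by
  intro F
  induction F using Finset.strongInduction with
  | _ F ih =>
    intro hF
    rcases F.eq_empty_or_nonempty with rfl | hne
    · have := rembs_empty H
      simp only [Finset.card_empty, pow_zero, mul_one]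
      have h0 : (verts (∅ : Finset (Sym2 (Fin n)))).card = 0 := by simp [verts]
      rw [h0, pow_zero]
      exact_mod_cast this
    · obtain ⟨K, hKF, hK, hdisj⟩ := exists_component hne
      have hss : F \ K ⊂ F := by
        refine Finset.ssubset_iff_subset_ne.2 ⟨Finset.sdiff_subset, fun h => ?_⟩
        obtain ⟨e, he⟩ := hK.1
        have : e ∈ F \ K := by rw [h]; exact hKF he
        exact (Finset.mem_sdiff.1 this).2 he
      have h0 := ih (F \ K) hss (Finset.sdiff_subset.trans hF)
      have h1 := comp_bound hH hq hD hdeg hyp hK (hKF.trans hF)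
      have hU : K ∪ F \ K = F := Finset.union_sdiff_of_subset hKF
      have h2 := card_rembs_union_le H K (F \ K)
      rw [hU] at h2
      have hv : (verts F).card = (verts K).card + (verts (F \ K)).card := by
        rw [← Finset.card_union_of_disjoint hdisj, ← verts_union, hU]
      have hc : F.card = K.card + (F \ K).card := by
        rw [Finset.card_sdiff_of_subset hKF]
        have := Finset.card_le_card hKF
        omega
      have h3 : ((rembs H F).card : ℝ) ≤ ((rembs H K).card : ℝ) * ((rembs H (F \ K)).card : ℝ) := by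
        exact_mod_cast h2
      calc ((rembs H F).card : ℝ) ≤ ((rembs H K).card : ℝ) * ((rembs H (F \ K)).card : ℝ) := h3
        _ ≤ ((n : ℝ) ^ (verts K).card * (12 * D * q) ^ K.card)
            * ((n : ℝ) ^ (verts (F \ K)).card * (12 * D * q) ^ (F \ K).card) :=
            mul_le_mul h1 h0 (by positivity) (by positivity)
        _ = (n : ℝ) ^ (verts F).card * (12 * D * q) ^ F.card := by
            rw [hv, hc, pow_add, pow_add]; ring

theorem factorial_pow_le (n v : ℕ) (h : v ≤ n) :
    ((n - v).factorial : ℝ) * (n : ℝ) ^ v ≤ 3 ^ v * (n.factorial : ℝ) := by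
  rcases Nat.eq_zero_or_pos v with rfl | hv
  · simp
  have h1 := descFactorial_ratio v n v h
  rw [Nat.descFactorial_self] at h1
  have h2 := inv_factorial_le v hv
  have hvf : (0 : ℝ) < (v.factorial : ℝ) := by exact_mod_cast Nat.factorial_pos v
  have hv0 : (0 : ℝ) < (v : ℝ) := by exact_mod_cast hv
  have h3 : (v : ℝ) ^ v ≤ 3 ^ v * (v.factorial : ℝ) := by
    rw [div_pow, div_le_div_iff₀ hvf (pow_pos hv0 v), one_mul] at h2
    exact h2
  have h4 : (v.factorial : ℝ) * (n : ℝ) ^ v ≤ (n.descFactorial v : ℝ) * (v : ℝ) ^ v := by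
    exact_mod_cast h1
  have h5 : (n : ℝ) ^ v ≤ 3 ^ v * (n.descFactorial v : ℝ) := by
    have h6 : (v.factorial : ℝ) * (n : ℝ) ^ v ≤ (v.factorial : ℝ) * (3 ^ v * (n.descFactorial v : ℝ)) := by
      calc (v.factorial : ℝ) * (n : ℝ) ^ v ≤ (n.descFactorial v : ℝ) * (v : ℝ) ^ v := h4
        _ ≤ (n.descFactorial v : ℝ) * (3 ^ v * (v.factorial : ℝ)) :=
            mul_le_mul_of_nonneg_left h3 (by positivity)
        _ = _ := by ring
    exact le_of_mul_le_mul_left h6 hvf
  have h7 : ((n - v).factorial : ℝ) * (n.descFactorial v : ℝ) = (n.factorial : ℝ) := by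
    exact_mod_cast Nat.factorial_mul_descFactorial h
  calc ((n - v).factorial : ℝ) * (n : ℝ) ^ v
      ≤ ((n - v).factorial : ℝ) * (3 ^ v * (n.descFactorial v : ℝ)) :=
        mul_le_mul_of_nonneg_left h5 (by positivity)
    _ = 3 ^ v * (((n - v).factorial : ℝ) * (n.descFactorial v : ℝ)) := by ring
    _ = _ := by rw [h7]

theorem bounded_degree (n : ℕ) (H : Finset (Sym2 (Fin n))) (q : ℝ) (D : ℕ)
    (hH : H ⊆ allEdges n) (hq : 0 ≤ q) (hD : 1 ≤ D) (hdeg : ∀ v, deg H v ≤ D)
    (hyp : ∀ F' ⊆ H, 1 ≤ expCount n q F') (F : Finset (Sym2 (Fin n))) (hF : F ⊆ H) :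
    (count H F : ℝ) ≤ expCount n (min 1 (108 * D * q)) F := by
  rw [expCount_eq]
  rcases le_total 1 (108 * (D : ℝ) * q) with h1 | h1
  · rw [min_eq_left h1, one_pow, mul_one]
    exact_mod_cast count_mono hH F
  rw [min_eq_right h1]
  have hA := count_mul_factorial (H := H) (hF.trans hH)
  have hL := card_embs_le H F
  have hB := all_bound hH hq hD hdeg hyp F hF
  set v := (verts F).card with hv
  have hvn : v ≤ n := by
    have := Finset.card_le_univ (verts F)
    simpa using this
  have hv2 : v ≤ 2 * F.card := card_verts_le_two_mul F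
  have hx : (0 : ℝ) ≤ 12 * D * q := by positivity
  have hE : ((embs H F).card : ℝ) ≤ (n.factorial : ℝ) * (108 * D * q) ^ F.card := by
    calc ((embs H F).card : ℝ) ≤ ((n - v).factorial : ℝ) * ((rembs H F).card : ℝ) := by
          exact_mod_cast hL
      _ ≤ ((n - v).factorial : ℝ) * ((n : ℝ) ^ v * (12 * D * q) ^ F.card) :=
          mul_le_mul_of_nonneg_left hB (by positivity)
      _ = (((n - v).factorial : ℝ) * (n : ℝ) ^ v) * (12 * D * q) ^ F.card := by ring
      _ ≤ (3 ^ v * (n.factorial : ℝ)) * (12 * D * q) ^ F.card :=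
          mul_le_mul_of_nonneg_right (factorial_pow_le n v hvn) (by positivity)
      _ ≤ (9 ^ F.card * (n.factorial : ℝ)) * (12 * D * q) ^ F.card := by
          have h3 : (3 : ℝ) ^ v ≤ 9 ^ F.card := by
            calc (3 : ℝ) ^ v ≤ 3 ^ (2 * F.card) := pow_le_pow_right₀ (by norm_num) hv2
              _ = 9 ^ F.card := by rw [pow_mul]; norm_num
          exact mul_le_mul_of_nonneg_right (mul_le_mul_of_nonneg_right h3 (by positivity))
            (by positivity)
      _ = (n.factorial : ℝ) * (108 * D * q) ^ F.card := by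
          have : (108 * (D : ℝ) * q) = 9 * (12 * D * q) := by ring
          rw [this, mul_pow 9 (12 * (D : ℝ) * q)]; ring
  have hnf : (0 : ℝ) < (n.factorial : ℝ) := by exact_mod_cast Nat.factorial_pos n
  have hA' : (count H F : ℝ) * (n.factorial : ℝ)
      = ((embs H F).card : ℝ) * (count (allEdges n) F : ℝ) := by exact_mod_cast hA
  have h6 : (count H F : ℝ) * (n.factorial : ℝ)
      ≤ ((count (allEdges n) F : ℝ) * (108 * D * q) ^ F.card) * (n.factorial : ℝ) := by
    rw [hA']
    calc ((embs H F).card : ℝ) * (count (allEdges n) F : ℝ)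
        ≤ ((n.factorial : ℝ) * (108 * D * q) ^ F.card) * (count (allEdges n) F : ℝ) :=
          mul_le_mul_of_nonneg_right hE (by positivity)
      _ = _ := by ring
  exact le_of_mul_le_mul_right h6 hnf

end Vale.Agent.P064.BD
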