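import Vale.Agent.P064.BD.Defs

/-!
# P064: the first moment hypothesis bounds the maximum degree
-/

namespace Vale.Agent.P064.BD

open Finset Vale.Agent.P064

variable {n : ℕ}

theorem deg_le_of_hyp {H : Finset (Sym2 (Fin n))} {q : ℝ} (_hH : H ⊆ allEdges n) (hq : 0 ≤ q)
    (hyp : ∀ F' ⊆ H, 1 ≤ expCount n q F') (l : ℕ) (hl : n ≤ 2 ^ l) (v : Fin n) :
    (deg H v : ℝ) ≤ max (l : ℝ) (6 * n * q) := by
  classical
  set t := deg H v with ht
  by_cases hlt : t ≤ l
  · exact le_max_of_le_left (by exact_mod_cast hlt)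
  refine le_max_of_le_right ?_
  have hlt' : l < t := not_le.1 hlt
  have ht1 : 1 ≤ t := by omega
  have hsub : starGraph v (nbr H v) ⊆ H := star_subset_iff.2 (Finset.Subset.refl _)
  have h1 := hyp _ hsub
  rw [expCount_eq, card_star] at h1
  have hcard : (nbr H v).card = t := rfl
  rw [hcard] at h1
  have h2 : count (allEdges n) (starGraph v (nbr H v)) ≤ n * n.choose t := by
    refine (count_star_le (allEdges n) v (nbr H v)).trans ?_
    rw [hcard]
    calc ∑ w : Fin n, (deg (allEdges n) w).choose t ≤ ∑ _w : Fin n, n.choose t := by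
          refine Finset.sum_le_sum fun w _ => Nat.choose_le_choose t ?_
          have := Finset.card_le_univ (nbr (allEdges n) w)
          simpa [deg] using this
      _ = n * n.choose t := by simp
  have h3 : (count (allEdges n) (starGraph v (nbr H v)) : ℝ) ≤ (n : ℝ) * (3 * (n : ℝ) / t) ^ t := by
    calc (count (allEdges n) (starGraph v (nbr H v)) : ℝ) ≤ (n : ℝ) * (n.choose t : ℝ) := by
          exact_mod_cast h2
      _ ≤ (n : ℝ) * (3 * (n : ℝ) / t) ^ t :=
          mul_le_mul_of_nonneg_left (choose_le_three n t ht1) (by positivity)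
  have h4 : (n : ℝ) ≤ 2 ^ t := by
    have : n ≤ 2 ^ t := hl.trans (Nat.pow_le_pow_right (by norm_num) hlt'.le)
    exact_mod_cast this
  have ht0 : (0 : ℝ) < (t : ℝ) := by exact_mod_cast ht1
  have h5 : (1 : ℝ) ≤ (6 * n * q / t) ^ t := by
    calc (1 : ℝ) ≤ (count (allEdges n) (starGraph v (nbr H v)) : ℝ) * q ^ t := h1
      _ ≤ ((n : ℝ) * (3 * (n : ℝ) / t) ^ t) * q ^ t :=
          mul_le_mul_of_nonneg_right h3 (by positivity)
      _ ≤ (2 ^ t * (3 * (n : ℝ) / t) ^ t) * q ^ t :=
          mul_le_mul_of_nonneg_right (mul_le_mul_of_nonneg_right h4 (by positivity))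
            (by positivity)
      _ = (6 * n * q / t) ^ t := by
          rw [← mul_pow, ← mul_pow]; congr 1; ring
  have h6 : (1 : ℝ) ≤ 6 * n * q / t := by
    by_contra hcon
    have hlt1 : 6 * (n : ℝ) * q / t < 1 := not_le.1 hcon
    have h7 : (6 * (n : ℝ) * q / t) ^ t < 1 :=
      pow_lt_one₀ (by positivity) hlt1 (by omega)
    linarith
  rwa [le_div_iff₀ ht0, one_mul] at h6

end Vale.Agent.P064.BD
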