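import Vale.Agent.P064.BD.Main
import Vale.Agent.P064.BD.Acyclic
import Vale.Agent.P064.BD.StarDeg

/-!
# P064: a logarithmic factor for forests and for sparse thresholds
-/

namespace Vale.Agent.P064.BD

open Finset Vale.Agent.P064

variable {n : ℕ}

/-- a bound for all connected parts gives a bound for the whole edge set -/
theorem all_bound_of_comp {H : Finset (Sym2 (Fin n))} {c : ℝ} (hc : 0 ≤ c) :
    ∀ F : Finset (Sym2 (Fin n)),
      (∀ K ⊆ F, Conn K → ((rembs H K).card : ℝ) ≤ (n : ℝ) ^ (verts K).card * c ^ K.card) →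
      ((rembs H F).card : ℝ) ≤ (n : ℝ) ^ (verts F).card * c ^ F.card := by
  intro F
  induction F using Finset.strongInduction with
  | _ F ih =>
    intro hcomp
    rcases F.eq_empty_or_nonempty with rfl | hne
    · have := rembs_empty H
      simp only [Finset.card_empty, pow_zero, mul_one]
      have h0 : (verts (∅ : Finset (Sym2 (Fin n)))).card = 0 := by simp [verts]
      rw [h0, pow_zero]
      exact_mod_cast this
    · obtain ⟨K, hKF, hK, hdisj⟩ := exists_component hne
      have hss : F \ K ⊂ F := by
        refine Finset.ssubset_iff_subset_ne.2 ⟨Finset.sdiff_subset, fun h => ?_⟩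
        obtain ⟨e, he⟩ := hK.1
        have : e ∈ F \ K := by rw [h]; exact hKF he
        exact (Finset.mem_sdiff.1 this).2 he
      have h0 := ih (F \ K) hss (fun K' hK' hc' => hcomp K' (hK'.trans Finset.sdiff_subset) hc')
      have h1 := hcomp K hKF hK
      have hU : K ∪ F \ K = F := Finset.union_sdiff_of_subset hKF
      have h2 := card_rembs_union_le H K (F \ K)
      rw [hU] at h2
      have hv : (verts F).card = (verts K).card + (verts (F \ K)).card := by
        rw [← Finset.card_union_of_disjoint hdisj, ← verts_union, hU]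
      have hcd : F.card = K.card + (F \ K).card := by
        rw [Finset.card_sdiff_of_subset hKF]
        have := Finset.card_le_card hKF
        omega
      have h3 : ((rembs H F).card : ℝ) ≤ ((rembs H K).card : ℝ) * ((rembs H (F \ K)).card : ℝ) := by
        exact_mod_cast h2
      calc ((rembs H F).card : ℝ) ≤ ((rembs H K).card : ℝ) * ((rembs H (F \ K)).card : ℝ) := h3
        _ ≤ ((n : ℝ) ^ (verts K).card * c ^ K.card)
            * ((n : ℝ) ^ (verts (F \ K)).card * c ^ (F \ K).card) :=
            mul_le_mul h1 h0 (by positivity) (by positivity)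
        _ = (n : ℝ) ^ (verts F).card * c ^ F.card := by
            rw [hv, hcd, pow_add, pow_add]; ring

/-- from restricted embeddings to copies -/
theorem count_le_of_rembs {H F : Finset (Sym2 (Fin n))} (hH : H ⊆ allEdges n) (hF : F ⊆ H)
    {c : ℝ} (hc : 0 ≤ c)
    (hB : ((rembs H F).card : ℝ) ≤ (n : ℝ) ^ (verts F).card * c ^ F.card) :
    (count H F : ℝ) ≤ (count (allEdges n) F : ℝ) * (9 * c) ^ F.card := by
  have hA := count_mul_factorial (H := H) (hF.trans hH)
  have hL := card_embs_le H F
  set v := (verts F).card with hv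
  have hvn : v ≤ n := by
    have := Finset.card_le_univ (verts F)
    simpa using this
  have hv2 : v ≤ 2 * F.card := card_verts_le_two_mul F
  have hE : ((embs H F).card : ℝ) ≤ (n.factorial : ℝ) * (9 * c) ^ F.card := by
    calc ((embs H F).card : ℝ) ≤ ((n - v).factorial : ℝ) * ((rembs H F).card : ℝ) := by
          exact_mod_cast hL
      _ ≤ ((n - v).factorial : ℝ) * ((n : ℝ) ^ v * c ^ F.card) :=
          mul_le_mul_of_nonneg_left hB (by positivity)
      _ = (((n - v).factorial : ℝ) * (n : ℝ) ^ v) * c ^ F.card := by ring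
      _ ≤ (3 ^ v * (n.factorial : ℝ)) * c ^ F.card :=
          mul_le_mul_of_nonneg_right (factorial_pow_le n v hvn) (by positivity)
      _ ≤ (9 ^ F.card * (n.factorial : ℝ)) * c ^ F.card := by
          have h3 : (3 : ℝ) ^ v ≤ 9 ^ F.card := by
            calc (3 : ℝ) ^ v ≤ 3 ^ (2 * F.card) := pow_le_pow_right₀ (by norm_num) hv2
              _ = 9 ^ F.card := by rw [pow_mul]; norm_num
          exact mul_le_mul_of_nonneg_right (mul_le_mul_of_nonneg_right h3 (by positivity))
            (by positivity)
      _ = (n.factorial : ℝ) * (9 * c) ^ F.card := by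
          rw [mul_pow 9 c]; ring
  have hnf : (0 : ℝ) < (n.factorial : ℝ) := by exact_mod_cast Nat.factorial_pos n
  have hA' : (count H F : ℝ) * (n.factorial : ℝ)
      = ((embs H F).card : ℝ) * (count (allEdges n) F : ℝ) := by exact_mod_cast hA
  have h6 : (count H F : ℝ) * (n.factorial : ℝ)
      ≤ ((count (allEdges n) F : ℝ) * (9 * c) ^ F.card) * (n.factorial : ℝ) := by
    rw [hA']
    calc ((embs H F).card : ℝ) * (count (allEdges n) F : ℝ)
        ≤ ((n.factorial : ℝ) * (9 * c) ^ F.card) * (count (allEdges n) F : ℝ) :=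
          mul_le_mul_of_nonneg_right hE (by positivity)
      _ = _ := by ring
  exact le_of_mul_le_mul_right h6 hnf

/-- a tree in a host whose degrees are at most `6 n q` -/
theorem tree_bound {H K : Finset (Sym2 (Fin n))} {q : ℝ} (hq : 0 ≤ q)
    (hdeg : ∀ v, (deg H v : ℝ) ≤ 6 * n * q) (hK : Conn K) (htree : K.card + 1 ≤ (verts K).card) :
    ((rembs H K).card : ℝ) ≤ (n : ℝ) ^ (verts K).card * (6 * q) ^ K.card := by
  classical
  obtain ⟨e, he⟩ := hK.1
  obtain ⟨u, hue⟩ : ∃ u, u ∈ e := by
    induction e using Sym2.ind with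
    | _ a b => exact ⟨a, Sym2.mem_mk_left _ _⟩
  have hu : u ∈ verts K := mem_verts.2 ⟨e, he, hue⟩
  set D := (univ : Finset (Fin n)).sup (fun v => deg H v) with hD
  have hdegD : ∀ v, deg H v ≤ D := fun v => Finset.le_sup (f := fun v => deg H v) (Finset.mem_univ v)
  have hDle : (D : ℝ) ≤ 6 * n * q := by
    rcases Nat.eq_zero_or_pos D with h0 | h0
    · rw [h0]; simp only [Nat.cast_zero]; positivity
    · obtain ⟨v, _, hv⟩ := Finset.exists_mem_eq_sup (univ : Finset (Fin n)) ⟨u, Finset.mem_univ u⟩
        (fun v => deg H v)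
      rw [hD, hv]
      exact hdeg v
  have hk : (verts K).card = K.card + 1 := le_antisymm (conn_card_verts_le hK) htree
  have h1 : (rembs H K).card ≤ n * D ^ K.card := by
    have h2 : (rembs H K).card = ∑ y : Fin n, ((rembs H K).filter (fun g => g u = y)).card :=
      Finset.card_eq_sum_card_fiberwise (fun g _ => Finset.mem_coe.2 (Finset.mem_univ (g u)))
    rw [h2]
    calc ∑ y : Fin n, ((rembs H K).filter (fun g => g u = y)).card
        ≤ ∑ _y : Fin n, D ^ K.card := by
          refine Finset.sum_le_sum fun y _ => ?_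
          have := rooted_card_le hdegD hK hu y
          rwa [hk, Nat.add_sub_cancel] at this
      _ = n * D ^ K.card := by simp
  calc ((rembs H K).card : ℝ) ≤ (n : ℝ) * (D : ℝ) ^ K.card := by exact_mod_cast h1
    _ ≤ (n : ℝ) * (6 * n * q) ^ K.card :=
        mul_le_mul_of_nonneg_left (pow_le_pow_left₀ (by positivity) hDle _) (by positivity)
    _ = (n : ℝ) ^ (verts K).card * (6 * q) ^ K.card := by
        rw [hk, pow_succ, mul_pow, mul_pow, mul_pow]; ring

theorem log_factor (n : ℕ) (H : Finset (Sym2 (Fin n))) (q : ℝ) (hn : 2 ≤ n)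
    (hH : H ⊆ allEdges n) (hq : 0 ≤ q) (hyp : ∀ F' ⊆ H, 1 ≤ expCount n q F') :
    (∀ F ⊆ H, (SimpleGraph.fromEdgeSet (F : Set (Sym2 (Fin n)))).IsAcyclic →
        (count H F : ℝ) ≤ expCount n (min 1 (108 * (Nat.clog 2 n : ℝ) * q)) F) ∧
      (6 * (n : ℝ) * q ≤ (Nat.clog 2 n : ℝ) → ∀ F ⊆ H,
        (count H F : ℝ) ≤ expCount n (min 1 (108 * (Nat.clog 2 n : ℝ) * q)) F) := by
  set l := Nat.clog 2 n with hl
  have hl2 : n ≤ 2 ^ l := Nat.le_pow_clog (by norm_num) n
  have hl1 : 1 ≤ l := Nat.clog_pos (by norm_num) hn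
  have hdeg := deg_le_of_hyp hH hq hyp l hl2
  constructor
  · intro F hF hac
    by_cases hcase : ∀ v, deg H v ≤ l
    · exact bounded_degree n H q l hH hq hl1 hcase hyp F hF
    · simp only [not_forall, not_le] at hcase
      obtain ⟨v₀, hv₀⟩ := hcase
      have hbig : (l : ℝ) ≤ 6 * n * q := by
        have h1 := hdeg v₀
        have h2 : (l : ℝ) < (deg H v₀ : ℝ) := by exact_mod_cast hv₀
        rcases le_max_iff.1 h1 with h3 | h3
        · linarith
        · linarith
      have hdeg' : ∀ v, (deg H v : ℝ) ≤ 6 * n * q := fun v =>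
        (hdeg v).trans (max_le hbig le_rfl)
      have hB := all_bound_of_comp (H := H) (c := 6 * q) (by positivity) F
        (fun K hKF hK => tree_bound hq hdeg' hK (card_add_one_le_of_acyclic hac (hF.trans hH) hKF hK))
      have hC := count_le_of_rembs hH hF (by positivity) hB
      rw [expCount_eq]
      rcases le_total 1 (108 * (l : ℝ) * q) with h1 | h1
      · rw [min_eq_left h1, one_pow, mul_one]
        exact_mod_cast count_mono hH F
      · rw [min_eq_right h1]
        refine hC.trans (mul_le_mul_of_nonneg_left ?_ (by positivity))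
        refine pow_le_pow_left₀ (by positivity) ?_ _
        have hl1' : (1 : ℝ) ≤ (l : ℝ) := by exact_mod_cast hl1
        nlinarith
  · intro hsmall F hF
    have hcase : ∀ v, deg H v ≤ l := by
      intro v
      have h1 := (hdeg v).trans (max_le le_rfl hsmall)
      exact_mod_cast h1
    exact bounded_degree n H q l hH hq hl1 hcase hyp F hF

end Vale.Agent.P064.BD
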