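import Vale.Agent.P064.BD.Degen

/-!
# P064: a logarithmic factor for degenerate subgraphs
-/

namespace Vale.Agent.P064.BD

open Finset Vale.Agent.P064

variable {n : ℕ}

theorem nat_mul_le_pow (j l : ℕ) (hj : 1 ≤ j) (hl : 1 ≤ l) : j * l ≤ (12 * l) ^ j := by
  have h1 : j ≤ 12 ^ j := (Nat.lt_pow_self (by norm_num : 1 < 12)).le
  have h2 : l ≤ l ^ j := by
    calc l = l ^ 1 := (pow_one l).symm
      _ ≤ l ^ j := Nat.pow_le_pow_right hl hj
  rw [mul_pow]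
  exact Nat.mul_le_mul h1 h2

theorem degenerate (n : ℕ) (H : Finset (Sym2 (Fin n))) (q : ℝ) (hn : 2 ≤ n)
    (hH : H ⊆ allEdges n) (hq : 0 ≤ q) (hq1 : q ≤ 1) (hyp : ∀ F' ⊆ H, 1 ≤ expCount n q F')
    (F : Finset (Sym2 (Fin n))) (hF : F ⊆ H) (d : ℕ) (π : Fin n → ℕ)
    (hπ : Function.Injective π)
    (hback : ∀ w, ((nbr F w).filter (fun u => π u < π w)).card ≤ d)
    (hd : 1 ≤ (n : ℝ) * q ^ d) :
    (count H F : ℝ) ≤ expCount n (min 1 (108 * (Nat.clog 2 n : ℝ) * q)) F := by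
  set l := Nat.clog 2 n with hl
  have hl2 : n ≤ 2 ^ l := Nat.le_pow_clog (by norm_num) n
  have hl1 : 1 ≤ l := Nat.clog_pos (by norm_num) hn
  have hl1' : (1 : ℝ) ≤ (l : ℝ) := by exact_mod_cast hl1
  have hc : (0 : ℝ) ≤ 12 * (l : ℝ) * q := by positivity
  have hM : ∀ J : Finset (Fin n), J.Nonempty → J.card ≤ d →
      ((cnbr H J).card : ℝ) ≤ (n : ℝ) * (12 * (l : ℝ) * q) ^ J.card := by
    intro J hJ hJd
    have h1 := card_cnbr_le hH hq hyp l hl2 J hJ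
    set j := J.card with hj
    have hj1 : 1 ≤ j := Finset.card_pos.2 hJ
    have hy : 1 ≤ (n : ℝ) * q ^ j := by
      refine hd.trans (mul_le_mul_of_nonneg_left ?_ (by positivity))
      exact pow_le_pow_of_le_one hq hq1 hJd
    have hA : ((j : ℝ) * l) ≤ (12 * (l : ℝ)) ^ j := by
      exact_mod_cast nat_mul_le_pow j l hj1 hl1
    have hA0 : (0 : ℝ) ≤ (12 * (l : ℝ)) ^ j := by positivity
    have hB : (6 : ℝ) ≤ (12 * (l : ℝ)) ^ j := by
      calc (6 : ℝ) ≤ 12 * (l : ℝ) := by linarith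
        _ = (12 * (l : ℝ)) ^ 1 := (pow_one _).symm
        _ ≤ (12 * (l : ℝ)) ^ j := pow_le_pow_right₀ (by linarith) hj1
    have hE : (n : ℝ) * (12 * (l : ℝ) * q) ^ j = (12 * (l : ℝ)) ^ j * ((n : ℝ) * q ^ j) := by
      rw [mul_pow]; ring
    rw [hE]
    refine h1.trans (max_le ?_ ?_)
    · calc (j : ℝ) * l ≤ (12 * (l : ℝ)) ^ j := hA
        _ = (12 * (l : ℝ)) ^ j * 1 := (mul_one _).symm
        _ ≤ (12 * (l : ℝ)) ^ j * ((n : ℝ) * q ^ j) := mul_le_mul_of_nonneg_left hy hA0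
    · calc 6 * (n : ℝ) * q ^ j = 6 * ((n : ℝ) * q ^ j) := by ring
        _ ≤ (12 * (l : ℝ)) ^ j * ((n : ℝ) * q ^ j) :=
            mul_le_mul_of_nonneg_right hB (by positivity)
  have hB := card_rembsOn_le (H := H) hc d hM π hπ (verts F) F (hF.trans hH)
    (Finset.Subset.refl _) (fun w _ => hback w)
  have hB' : ((rembs H F).card : ℝ) ≤ (n : ℝ) ^ (verts F).card * (12 * (l : ℝ) * q) ^ F.card := hB
  have hC := count_le_of_rembs hH hF hc hB'
  rw [expCount_eq]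
  rcases le_total 1 (108 * (l : ℝ) * q) with h1 | h1
  · rw [min_eq_left h1, one_pow, mul_one]
    exact_mod_cast count_mono hH F
  · rw [min_eq_right h1]
    have : 9 * (12 * (l : ℝ) * q) = 108 * (l : ℝ) * q := by ring
    rwa [this] at hC

end Vale.Agent.P064.BD
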