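import Vale.Agent.P064.BD.Defs

namespace Vale.Agent.P064.BD

open Finset Vale.Agent.P064

variable {n : ℕ}

theorem orb_relabel_mul (a b : Equiv.Perm (Fin n)) (F : Finset (Sym2 (Fin n))) :
    relabel (a * b) F = relabel a (relabel b F) := by
  unfold relabel
  rw [Finset.image_image]
  congr 1
  funext e
  simp [Sym2.map_map]

theorem orb_relabel_one (F : Finset (Sym2 (Fin n))) : relabel 1 F = F := by
  unfold relabel
  have : (Sym2.map ((1 : Equiv.Perm (Fin n)) : Fin n → Fin n)) = id := by
    funext e
    simp
  rw [this, Finset.image_id]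

/-- the stabiliser of an edge set -/
def stab (F : Finset (Sym2 (Fin n))) : Finset (Equiv.Perm (Fin n)) :=
  univ.filter (fun s => relabel s F = F)

theorem card_fibre (F : Finset (Sym2 (Fin n))) (t : Equiv.Perm (Fin n)) :
    (univ.filter (fun s : Equiv.Perm (Fin n) => relabel s F = relabel t F)).card
      = (stab F).card := by
  have : univ.filter (fun s : Equiv.Perm (Fin n) => relabel s F = relabel t F)
      = (stab F).image (fun s => t * s) := by
    ext s
    simp only [mem_filter, mem_univ, true_and, mem_image, stab]
    constructor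
    · intro h
      refine ⟨t⁻¹ * s, ?_, by simp⟩
      rw [orb_relabel_mul, h, ← orb_relabel_mul]
      simp [orb_relabel_one]
    · rintro ⟨u, hu, rfl⟩
      rw [orb_relabel_mul, hu]
  rw [this, card_image_of_injective _ (mul_right_injective t)]

theorem card_embs_eq (G F : Finset (Sym2 (Fin n))) :
    (embs G F).card = count G F * (stab F).card := by
  classical
  have h1 : (embs G F).card
      = ∑ F' ∈ copies G F, ((embs G F).filter (fun s => relabel s F = F')).card := by
    apply card_eq_sum_card_fiberwise
    intro s hs
    have hs' : relabel s F ⊆ G := mem_embs.1 hs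
    exact mem_copies.2 ⟨hs', s, rfl⟩
  rw [h1]
  have h2 : ∀ F' ∈ copies G F, ((embs G F).filter (fun s => relabel s F = F')).card
      = (stab F).card := by
    intro F' hF'
    obtain ⟨hsub, t, rfl⟩ := mem_copies.1 hF'
    rw [← card_fibre F t]
    congr 1
    ext s
    simp only [mem_filter, mem_univ, true_and, mem_embs]
    constructor
    · exact fun h => h.2
    · intro h
      exact ⟨h ▸ hsub, h⟩
  rw [sum_congr rfl h2, sum_const, smul_eq_mul]
  rfl

theorem embs_allEdges {F : Finset (Sym2 (Fin n))} (hF : F ⊆ allEdges n) :
    embs (allEdges n) F = univ := by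
  ext s
  simp only [mem_embs, mem_univ, iff_true]
  intro e he
  unfold relabel at he
  rw [mem_image] at he
  obtain ⟨e', he', rfl⟩ := he
  have h1 := hF he'
  unfold allEdges at h1 ⊢
  rw [mem_filter] at h1 ⊢
  refine ⟨mem_univ _, ?_⟩
  rw [Sym2.isDiag_map s.injective]
  exact h1.2

theorem count_mul_factorial {H F : Finset (Sym2 (Fin n))} (hF : F ⊆ allEdges n) :
    count H F * n.factorial = (embs H F).card * count (allEdges n) F := by
  have h1 : n.factorial = count (allEdges n) F * (stab F).card := by
    rw [← card_embs_eq, embs_allEdges hF, card_univ, Fintype.card_perm, Fintype.card_fin]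
  rw [h1, card_embs_eq H F]
  ring

end Vale.Agent.P064.BD
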