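import Vale.Agent.P064.BD.Defs

/-! # P064, bounded degree hosts, PART B: vertex-disjoint packings of copies are small -/

namespace Vale.Agent.P064.BD

open Finset Vale.Agent.P064

variable {n : ℕ}

theorem relabel_congr {σ τ : Equiv.Perm (Fin n)} {K : Finset (Sym2 (Fin n))}
    (h : ∀ x ∈ verts K, σ x = τ x) : relabel σ K = relabel τ K := by
  unfold relabel
  refine Finset.image_congr ?_
  intro e he
  exact Sym2.map_congr (fun x hx => h x (mem_verts.2 ⟨e, he, hx⟩))

theorem relabel_mul (σ τ : Equiv.Perm (Fin n)) (K : Finset (Sym2 (Fin n))) :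
    relabel (σ * τ) K = relabel σ (relabel τ K) := by
  unfold relabel
  rw [Finset.image_image]
  refine Finset.image_congr ?_
  intro e _
  simp [Sym2.map_map, Equiv.Perm.coe_mul]

theorem relabel_injective (σ : Equiv.Perm (Fin n)) :
    Function.Injective (relabel σ : Finset (Sym2 (Fin n)) → Finset (Sym2 (Fin n))) :=
  Finset.image_injective (Sym2.map.injective σ.injective)

theorem count_le_pow (K : Finset (Sym2 (Fin n))) :
    count (allEdges n) K ≤ n ^ (verts K).card := by
  classical
  have hex : ∀ C : Finset (Sym2 (Fin n)), ∃ σ : Equiv.Perm (Fin n),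
      C ∈ copies (allEdges n) K → C = relabel σ K := by
    intro C
    by_cases hC : C ∈ copies (allEdges n) K
    · obtain ⟨σ, hσ⟩ := (mem_copies.1 hC).2
      exact ⟨σ, fun _ => hσ⟩
    · exact ⟨1, fun h => absurd h hC⟩
  choose s hs using hex
  have h1 : (copies (allEdges n) K).card ≤
      (univ : Finset ({x // x ∈ verts K} → Fin n)).card := by
    refine Finset.card_le_card_of_injOn (fun C => fun x : {x // x ∈ verts K} => s C x.1)
      (fun _ _ => mem_coe.2 (mem_univ _)) ?_
    intro C hC C' hC' h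
    rw [hs C hC, hs C' hC']
    refine relabel_congr (fun x hx => ?_)
    exact congrFun h ⟨x, hx⟩
  refine h1.trans (le_of_eq ?_)
  simp

theorem relabel_biUnion (σ : Equiv.Perm (Fin n)) (P : Finset (Finset (Sym2 (Fin n)))) :
    (P.image (relabel σ)).biUnion id = relabel σ (P.biUnion id) := by
  unfold relabel
  rw [Finset.image_biUnion, Finset.biUnion_image]
  rfl

theorem count_biUnion_le (K : Finset (Sym2 (Fin n))) (P : Finset (Finset (Sym2 (Fin n))))
    (hP : ∀ A ∈ P, ∃ σ : Equiv.Perm (Fin n), A = relabel σ K) :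
    count (allEdges n) (P.biUnion id) ≤ (count (allEdges n) K).choose P.card := by
  classical
  have hex : ∀ C : Finset (Sym2 (Fin n)), ∃ σ : Equiv.Perm (Fin n),
      C ∈ copies (allEdges n) (P.biUnion id) → C = relabel σ (P.biUnion id) := by
    intro C
    by_cases hC : C ∈ copies (allEdges n) (P.biUnion id)
    · obtain ⟨σ, hσ⟩ := (mem_copies.1 hC).2
      exact ⟨σ, fun _ => hσ⟩
    · exact ⟨1, fun h => absurd h hC⟩
  choose s hs using hex
  unfold count
  rw [← Finset.card_powersetCard]
  refine Finset.card_le_card_of_injOn (fun C => P.image (relabel (s C))) ?_ ?_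
  · intro C hC
    have hC' : C ∈ copies (allEdges n) (P.biUnion id) := hC
    refine mem_coe.2 (mem_powersetCard.2 ⟨?_, ?_⟩)
    · intro B hB
      obtain ⟨A, hA, rfl⟩ := mem_image.1 hB
      obtain ⟨τ, rfl⟩ := hP A hA
      refine mem_copies.2 ⟨?_, s C * τ, (relabel_mul _ _ _).symm⟩
      refine Subset.trans ?_ (mem_copies.1 hC').1
      conv_rhs => rw [hs C hC']
      exact relabel_mono _ (Finset.subset_biUnion_of_mem id hA)
    · exact Finset.card_image_of_injective _ (relabel_injective _)
  · intro C hC C' hC' h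
    have h1 : P.image (relabel (s C)) = P.image (relabel (s C')) := h
    rw [hs C hC, hs C' hC', ← relabel_biUnion, ← relabel_biUnion, h1]

theorem packing_bound {H K : Finset (Sym2 (Fin n))} {q : ℝ} (hq : 0 ≤ q) (hK : K.Nonempty)
    (hyp : ∀ F' ⊆ H, 1 ≤ expCount n q F')
    (P : Finset (Finset (Sym2 (Fin n)))) (hP : P ⊆ copies H K)
    (hdisj : ∀ A ∈ P, ∀ B ∈ P, A ≠ B → Disjoint (verts A) (verts B)) :
    (P.card : ℝ) ≤ 3 * (n : ℝ) ^ (verts K).card * q ^ K.card := by
  classical
  rcases Nat.eq_zero_or_pos P.card with h0 | hpos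
  · rw [h0]
    push_cast
    positivity
  set U := P.biUnion id with hU
  have hUH : U ⊆ H := by
    refine Finset.biUnion_subset.2 (fun A hA => ?_)
    exact (mem_copies.1 (hP hA)).1
  have hcard : U.card = P.card * K.card := by
    rw [hU, Finset.card_biUnion]
    · rw [Finset.sum_congr rfl (g := fun _ => K.card), Finset.sum_const, smul_eq_mul]
      intro A hA
      obtain ⟨σ, rfl⟩ := (mem_copies.1 (hP hA)).2
      exact card_relabel σ K
    · intro A hA B hB hAB
      rw [Function.onFun, Finset.disjoint_left]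
      intro e heA heB
      have hd := hdisj A hA B hB hAB
      have hv : e.out.1 ∈ e := Sym2.out_fst_mem e
      exact (Finset.disjoint_left.1 hd) (mem_verts.2 ⟨e, heA, hv⟩) (mem_verts.2 ⟨e, heB, hv⟩)
  have h1 := hyp U hUH
  rw [expCount_eq, hcard] at h1
  set N := count (allEdges n) K with hN
  have h2 : count (allEdges n) U ≤ N.choose P.card :=
    count_biUnion_le K P (fun A hA => (mem_copies.1 (hP hA)).2)
  have h3 : ((N.choose P.card : ℕ) : ℝ) ≤ (3 * (N : ℝ) / (P.card : ℝ)) ^ P.card :=
    choose_le_three N P.card hpos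
  have hqK : (0 : ℝ) ≤ q ^ K.card := pow_nonneg hq _
  have hν : (0 : ℝ) < (P.card : ℝ) := by exact_mod_cast hpos
  have h4 : (1 : ℝ) ≤ (3 * (N : ℝ) * q ^ K.card / (P.card : ℝ)) ^ P.card := by
    calc (1 : ℝ) ≤ (count (allEdges n) U : ℝ) * q ^ (P.card * K.card) := h1
      _ ≤ (3 * (N : ℝ) / (P.card : ℝ)) ^ P.card * q ^ (P.card * K.card) := by
          refine mul_le_mul_of_nonneg_right ?_ (pow_nonneg hq _)
          exact le_trans (by exact_mod_cast h2) h3
      _ = (3 * (N : ℝ) * q ^ K.card / (P.card : ℝ)) ^ P.card := by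
          rw [mul_comm P.card K.card, pow_mul, ← mul_pow]
          congr 1
          ring
  have h5 : (1 : ℝ) ≤ 3 * (N : ℝ) * q ^ K.card / (P.card : ℝ) := by
    by_contra hlt
    rw [not_le] at hlt
    have := pow_lt_one₀ (by positivity) hlt (Nat.pos_iff_ne_zero.1 hpos)
    linarith
  rw [le_div_iff₀ hν, one_mul] at h5
  have h6 : (N : ℝ) ≤ (n : ℝ) ^ (verts K).card := by
    exact_mod_cast count_le_pow K
  calc (P.card : ℝ) ≤ 3 * (N : ℝ) * q ^ K.card := h5
    _ ≤ 3 * (n : ℝ) ^ (verts K).card * q ^ K.card := by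
        refine mul_le_mul_of_nonneg_right ?_ hqK
        linarith

end Vale.Agent.P064.BD
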