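import Vale.Agent.P064.BD.Main
import Vale.Agent.P034.Defs

/-!
# Fractional versus integral covers for the family of graphs containing a copy of `H`
-/

namespace Vale.Agent.P064.BD

open Finset Vale.Agent.P064 Vale.Agent.P034

variable {n : ℕ}

theorem relabel_subset_allEdges (σ : Equiv.Perm (Fin n)) {F : Finset (Sym2 (Fin n))}
    (hF : F ⊆ allEdges n) : relabel σ F ⊆ allEdges n := by
  have h := embs_allEdges hF
  have : σ ∈ embs (allEdges n) F := by rw [h]; exact Finset.mem_univ σ
  exact mem_embs.1 this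

theorem cost_copies (G F : Finset (Sym2 (Fin n))) (q : ℝ) :
    cost (copies G F) q = (count G F : ℝ) * q ^ F.card := by
  unfold cost count
  rw [Finset.sum_congr rfl (g := fun _ => q ^ F.card)]
  · rw [Finset.sum_const, nsmul_eq_mul]
  · intro S hS
    obtain ⟨_, σ, rfl⟩ := mem_copies.1 hS
    rw [card_relabel]

theorem card_embs_relabel (H S : Finset (Sym2 (Fin n))) (τ : Equiv.Perm (Fin n)) :
    (embs H (relabel τ S)).card = (embs H S).card := by
  refine Finset.card_bij (fun σ _ => σ * τ) ?_ ?_ ?_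
  · intro σ hσ
    rw [mem_embs] at hσ ⊢
    rwa [relabel_mul]
  · intro σ _ σ' _ h
    exact mul_right_cancel h
  · intro ρ hρ
    refine ⟨ρ * τ⁻¹, ?_, by simp⟩
    rw [mem_embs] at hρ ⊢
    rw [← relabel_mul, inv_mul_cancel_right]
    exact hρ

theorem card_embs_le_of_sub {H S : Finset (Sym2 (Fin n))} {p : ℝ} (hH : H ⊆ allEdges n)
    (hS : S ⊆ H) (h : (count H S : ℝ) ≤ (count (allEdges n) S : ℝ) * p ^ S.card) :
    ((embs H S).card : ℝ) ≤ (n.factorial : ℝ) * p ^ S.card := by
  have hA := count_mul_factorial (H := H) (hS.trans hH)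
  have hA' : (count H S : ℝ) * (n.factorial : ℝ)
      = ((embs H S).card : ℝ) * (count (allEdges n) S : ℝ) := by exact_mod_cast hA
  have hpos : (0 : ℝ) < (count (allEdges n) S : ℝ) := by
    have : 0 < count (allEdges n) S := by
      unfold count
      refine Finset.card_pos.2 ⟨S, mem_copies.2 ⟨hS.trans hH, 1, ?_⟩⟩
      unfold relabel
      have h1 : (Sym2.map ((1 : Equiv.Perm (Fin n)) : Fin n → Fin n)) = id := by
        funext e
        induction e using Sym2.ind with
        | _ a b => simp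
      rw [h1, Finset.image_id]
    exact_mod_cast this
  have h2 : ((embs H S).card : ℝ) * (count (allEdges n) S : ℝ)
      ≤ ((n.factorial : ℝ) * p ^ S.card) * (count (allEdges n) S : ℝ) := by
    rw [← hA']
    calc (count H S : ℝ) * (n.factorial : ℝ)
        ≤ ((count (allEdges n) S : ℝ) * p ^ S.card) * (n.factorial : ℝ) :=
          mul_le_mul_of_nonneg_right h (by positivity)
      _ = _ := by ring
  exact le_of_mul_le_mul_right h2 hpos

theorem talagrand_bounded_degree (n : ℕ) (H : Finset (Sym2 (Fin n))) (D : ℕ)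
    (hH : H ⊆ allEdges n) (hD : 1 ≤ D) (hdeg : ∀ v, deg H v ≤ D)
    (F : Finset (Finset (Sym2 (Fin n))))
    (hF : ∀ G, G ∈ F ↔ ∃ σ : Equiv.Perm (Fin n), relabel σ H ⊆ G)
    (g : Finset (Sym2 (Fin n)) → ℝ) (p : ℝ) (hp0 : 0 ≤ p)
    (hg : IsFracCover g F) (hcost : fracCost g p ≤ 1 / 2) :
    IsSmall F (p / (216 * D)) := by
  classical
  by_contra hsmall
  set q := p / (216 * (D : ℝ)) with hq
  have hD0 : (0 : ℝ) < (D : ℝ) := by exact_mod_cast hD
  have hq0 : 0 ≤ q := by positivity
  have hpq : 108 * (D : ℝ) * (2 * q) = p := by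
    rw [hq]; field_simp; ring
  -- the first moment hypothesis at `2 q`
  have hyp : ∀ F' ⊆ H, 1 ≤ expCount n (2 * q) F' := by
    intro F' hF'
    have hcov : Covers (copies (allEdges n) F') F := by
      intro G hG
      obtain ⟨σ, hσ⟩ := (hF G).1 hG
      exact ⟨relabel σ F', mem_copies.2 ⟨relabel_subset_allEdges σ (hF'.trans hH), σ, rfl⟩,
        (relabel_mono σ hF').trans hσ⟩
    have hc : 1 / 2 < cost (copies (allEdges n) F') q := by
      by_contra hcon
      exact hsmall ⟨_, hcov, not_lt.1 hcon⟩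
    rw [cost_copies] at hc
    rw [expCount_eq, mul_pow]
    rcases Nat.eq_zero_or_pos F'.card with h0 | h0
    · rw [h0] at hc ⊢
      simp only [pow_zero, mul_one] at hc ⊢
      have : 0 < count (allEdges n) F' := by
        by_contra h
        have h' : count (allEdges n) F' = 0 := by omega
        rw [h'] at hc
        norm_num at hc
      exact_mod_cast this
    · have h2 : (2 : ℝ) ≤ 2 ^ F'.card := by
        calc (2 : ℝ) = 2 ^ 1 := by norm_num
          _ ≤ 2 ^ F'.card := pow_le_pow_right₀ (by norm_num) h0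
      have h3 : 0 ≤ (count (allEdges n) F' : ℝ) * q ^ F'.card := by positivity
      nlinarith
  have hmain : ∀ S : Finset (Sym2 (Fin n)),
      ((embs H S).card : ℝ) ≤ (n.factorial : ℝ) * p ^ S.card := by
    intro S
    rcases (embs H S).eq_empty_or_nonempty with h0 | ⟨τ, hτ⟩
    · rw [h0]; simp only [Finset.card_empty, Nat.cast_zero]; positivity
    · have hS' : relabel τ S ⊆ H := mem_embs.1 hτ
      have h1 := bounded_degree n H (2 * q) D hH (by positivity) hD hdeg hyp _ hS'
      rw [hpq, expCount_eq] at h1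
      have h2 : (count H (relabel τ S) : ℝ)
          ≤ (count (allEdges n) (relabel τ S) : ℝ) * p ^ (relabel τ S).card := by
        refine h1.trans (mul_le_mul_of_nonneg_left ?_ (by positivity))
        exact pow_le_pow_left₀ (le_min (by norm_num) hp0) (min_le_right _ _) _
      have h3 := card_embs_le_of_sub hH hS' h2
      rwa [card_embs_relabel, card_relabel] at h3
  -- double counting
  have h1 : ∀ σ : Equiv.Perm (Fin n), (1 : ℝ) ≤ ∑ S ∈ (relabel σ H).powerset, g S :=
    fun σ => hg.2 _ ((hF _).2 ⟨σ, Finset.Subset.refl _⟩)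
  have h2 : (n.factorial : ℝ) ≤ ∑ σ : Equiv.Perm (Fin n), ∑ S ∈ (relabel σ H).powerset, g S := by
    calc (n.factorial : ℝ) = ∑ _σ : Equiv.Perm (Fin n), (1 : ℝ) := by
          simp [Fintype.card_perm]
      _ ≤ _ := Finset.sum_le_sum fun σ _ => h1 σ
  have h3 : ∑ σ : Equiv.Perm (Fin n), ∑ S ∈ (relabel σ H).powerset, g S
      = ∑ S : Finset (Sym2 (Fin n)), g S * ((embs H S).card : ℝ) := by
    have e1 : ∀ σ : Equiv.Perm (Fin n), ∑ S ∈ (relabel σ H).powerset, g S
        = ∑ S : Finset (Sym2 (Fin n)), if S ⊆ relabel σ H then g S else 0 := by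
      intro σ
      rw [← Finset.sum_filter]
      refine Finset.sum_congr ?_ fun _ _ => rfl
      ext S
      simp
    rw [Finset.sum_congr rfl fun σ _ => e1 σ, Finset.sum_comm]
    refine Finset.sum_congr rfl fun S _ => ?_
    rw [← Finset.sum_filter, Finset.sum_const, nsmul_eq_mul, mul_comm]
    congr 2
    refine Finset.card_bij (fun σ _ => σ⁻¹) ?_ ?_ ?_
    · intro σ hσ
      rw [Finset.mem_filter] at hσ
      rw [mem_embs]
      have := relabel_mono σ⁻¹ hσ.2
      rwa [← relabel_mul, inv_mul_cancel, orb_relabel_one] at this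
    · intro σ _ σ' _ h
      exact inv_injective h
    · intro ρ hρ
      refine ⟨ρ⁻¹, ?_, by simp⟩
      rw [Finset.mem_filter]
      refine ⟨Finset.mem_univ _, ?_⟩
      have := relabel_mono ρ⁻¹ (mem_embs.1 hρ)
      rwa [← relabel_mul, inv_mul_cancel, orb_relabel_one] at this
  have h4 : ∑ S : Finset (Sym2 (Fin n)), g S * ((embs H S).card : ℝ)
      ≤ (n.factorial : ℝ) * fracCost g p := by
    unfold fracCost
    rw [Finset.mul_sum]
    refine Finset.sum_le_sum fun S _ => ?_
    calc g S * ((embs H S).card : ℝ) ≤ g S * ((n.factorial : ℝ) * p ^ S.card) :=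
          mul_le_mul_of_nonneg_left (hmain S) (hg.1 S).1
      _ = (n.factorial : ℝ) * (g S * p ^ S.card) := by ring
  have hnf : (0 : ℝ) < (n.factorial : ℝ) := by exact_mod_cast Nat.factorial_pos n
  have h5 : (n.factorial : ℝ) ≤ (n.factorial : ℝ) * (1 / 2) :=
    (h2.trans (h3.le.trans h4)).trans (mul_le_mul_of_nonneg_left hcost hnf.le)
  linarith

end Vale.Agent.P064.BD
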